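import Vale.Agent.P004.H1a
import Vale.Agent.P004.Iface2

/-!
# P004, upgrade 2: bounded moments of the analytic rank. Definitions and frozen statements.

Every module proves `theorem pfXxx : StXxx` (taking other `StYyy` as hypotheses when needed) in its
own file `Vale/Agent/P004/H503/<Module>.lean`.
-/

open Real MeasureTheory Set
open scoped ENNReal

namespace P004

/-! ### A. the full second moment -/

/-- Module A : the full second moment is `≪ X (log X)^A`. -/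
def StFull : Prop := ∃ C : ℝ, 1 ≤ C ∧ ∃ A : ℕ, ∀ X : ℕ, 3 ≤ X →
  sumJ X ≤ ENNReal.ofReal (C * X * Real.log X ^ A)

/-! ### D. twisted mean values -/

/-- `n` is odd and the primes `≡ 3 mod 4` divide it to an even power (true when `ca n ≠ 0`) -/
def Good (n : ℕ) : Prop :=
  n ≠ 0 ∧ ∀ p : ℕ, p.Prime → p ∣ n → p ≠ 2 ∧ (p % 4 = 3 → Even (n.factorization p))

open scoped Classical in
/-- the mean value of `h ↦ (h/n)` -/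
noncomputable def rho (n : ℕ) : ℝ :=
  if n ≠ 0 ∧ IsSquare n then ∏ p ∈ n.primeFactors, (1 - 1 / (p : ℝ)) else 0

/-- the linear functional `∫_0^∞ theta h u f(u) du` -/
noncomputable def Fn (f : ℝ → ℝ) (h : ℤ) : ℝ := ∫ u in Ioi (0 : ℝ), theta h u * f u

/-- its coefficients: `Fn f h = ∑ bet f n chi h n` -/
noncomputable def bet (f : ℝ → ℝ) (n : ℕ) : ℝ :=
  4 * ca n * ∫ u in Ioi (0 : ℝ), Real.exp (-π * n * u) * f u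

/-- the error in the smoothed mean value of `chi · n` -/
noncomputable def Eh (H : ℝ) (n : ℕ) : ℝ := (∑' h : ℤ, H1.ah H h * chi h n) - 5040 * H * rho n

/-- Module T0 : mean value of one character. -/
def StTw0 : Prop :=
  ∃ C : ℝ, 1 ≤ C ∧ ∀ (H : ℝ) (ν : ℕ), 1 ≤ H → Good ν → |Eh H ν| ≤ C * (√(ν : ℝ) * dv ν)

/-- Module T1 : twisted first moment. -/
def StTw1 : Prop :=
  ∃ C : ℝ, 1 ≤ C ∧ ∃ A : ℕ, ∀ (L H U : ℝ) (ν : ℕ) (f : ℝ → ℝ), 1 ≤ L → 1 ≤ H →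
    Real.exp (-L) ≤ U → U ≤ 1 → Good ν → Measurable f → (∀ u, |f u| ≤ 1) →
    (∀ u, u < U → f u = 0) →
    |(∑' h : ℤ, H1.ah H h * chi h ν * Fn f h) - 5040 * H * ∑' n : ℕ, bet f n * rho (ν * n)| ≤
      C * L ^ A * (√(ν : ℝ) * dv ν ^ A) / U

/-- Module T2 : twisted second moment. -/
def StTw2 : Prop :=
  ∃ C : ℝ, 1 ≤ C ∧ ∃ A : ℕ, ∀ (L H U : ℝ) (ν : ℕ) (f : ℝ → ℝ), 1 ≤ L → 1 ≤ H → Real.log H ≤ L →
    Real.exp (-L) ≤ U → U ≤ 1 → Good ν → Real.log ν ≤ L → Measurable f → (∀ u, |f u| ≤ 1) →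
    (∀ u, u < U → f u = 0) →
    |(∑' h : ℤ, H1.ah H h * chi h ν * Fn f h ^ 2) -
      5040 * H * ∑' p : ℕ × ℕ, bet f p.1 * bet f p.2 * rho (ν * p.1 * p.2)| ≤
      C * L ^ A * (√(ν : ℝ) * dv ν ^ A) / U

/-- sum over pairs of squarefree integers coprime to `R` (used with: `p ∣ V → p ∣ R`) -/
noncomputable def DD (H : ℝ) (V R : ℕ) (v₁ v₂ : ℝ) : ℝ :=
  ∑' p : ℕ × ℕ, H1.wt R v₁ p.1 * H1.wt R v₂ p.2 * Eh H (V * p.1 * p.2)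

/-- the summand of `AG`: `t = (g, m₁, m₂)` -/
noncomputable def AGTerm (H : ℝ) (R j k : ℕ) (u₁ u₂ : ℝ) (t : ℕ × ℕ × ℕ) : ℝ :=
  if Squarefree (t.1 * t.2.1 * t.2.2) ∧ (t.1 * t.2.1 * t.2.2).Coprime R then
    (ca t.1 : ℝ) ^ 2 * (lam t.2.1 * lam t.2.2) * chi k (t.2.1 * t.2.2) *
      (∑ d ∈ t.1.divisors, if d ∣ j then
        (ArithmeticFunction.moebius d : ℝ) / d *
          Gk ((j : ℝ) * H / ((d : ℝ) ^ 2 * (t.2.1 * t.2.2))) else 0) *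
      Real.exp (-π * t.1 * (t.2.1 * u₁ + t.2.2 * u₂))
  else 0

/-- the dual sum: like `Aj`, but with two variables `u₁, u₂`, and with the character `(k/·)` not
tied to `j` -/
noncomputable def AG (H : ℝ) (R j k : ℕ) (u₁ u₂ : ℝ) : ℝ :=
  ∑' t : ℕ × ℕ × ℕ, AGTerm H R j k u₁ u₂ t

/-- Module D1 : Poisson summation for `DD`. -/
def StD1 : Prop :=
  ∀ (H v₁ v₂ : ℝ) (V R t s : ℕ), 0 < H → 0 < v₁ → 0 < v₂ → R ≠ 0 → Good V →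
    (∀ p : ℕ, p.Prime → p ∣ V → p ∣ R) → Squarefree t → V = t * s ^ 2 →
    ENNReal.ofReal |DD H V R v₁ v₂| ≤
      ∑ δ ∈ s.divisors.filter Squarefree, ENNReal.ofReal (2 * H / (δ * √(t : ℝ))) *
        ∑' j : ℕ, ENNReal.ofReal |AG (H / (δ * t)) R (j + 1) (δ * (j + 1)) v₁ v₂|

/-- Module D2 : separation of variables in `AG`. -/
def StSep2 : Prop :=
  ∃ C : ℝ, 0 < C ∧ ∀ θ : ℝ, 0 < θ → θ ≤ 1 / 8 → ∀ (H : ℝ) (R j k : ℕ) (u₁ u₂ : ℝ), 0 < H →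
    0 < R → 0 < j → 0 < u₁ → 0 < u₂ →
    ENNReal.ofReal |AG H R j k u₁ u₂| ≤
      ENNReal.ofReal (C * (j * H) ^ (-1 / 2 + θ)) *
        ∑' g : ℕ, ∑' e : ℕ, ENNReal.ofReal (g * dv g ^ 3 * (dv e ^ 2 * (e : ℝ) ^ (1 - 2 * θ))) *
          ∫⁻ v : ℝ, ENNReal.ofReal (Real.exp (-3 * π * |v|) *
            (‖Tf θ v (e * g * R) k (u₁ * g * e)‖ * ‖Tf θ v (e * g * R) k (u₂ * g * e)‖))

/-- Module D3 : the bound for one `j ≥ 1`, `k = k₁ k₂²`. -/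
def StAG : Prop :=
  ∃ C : ℝ, 0 < C ∧ ∃ A : ℕ, ∀ θ : ℝ, 0 < θ → θ ≤ 1 / 8 →
    ∀ (H V₁ V₂ : ℝ) (R j k₁ k₂ : ℕ), 0 < H → 0 < V₁ → 0 < V₂ → 0 < R → 0 < j →
    Squarefree k₁ → 0 < k₂ →
    ∫⁻ u₁ in Ioi V₁, ∫⁻ u₂ in Ioi V₂, ENNReal.ofReal |AG H R j (k₁ * k₂ ^ 2) u₁ u₂| ≤
      ENNReal.ofReal (C * (1 / θ) ^ A * dv R ^ A * dv k₂ ^ A * (j * H) ^ (-1 / 2 + θ) *
        (V₁ * V₂) ^ (-θ)) * (Jm k₁ + 1)

/-- Module D4 : the tail bound. -/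
def StTailAG : Prop :=
  ∃ C : ℝ, 1 ≤ C ∧ ∀ (H V₁ V₂ : ℝ) (R j k : ℕ), 0 < H → 0 < V₁ → 0 < V₂ → 0 < R → 0 < j →
    ∫⁻ u₁ in Ioi V₁, ∫⁻ u₂ in Ioi V₂, ENNReal.ofReal |AG H R j k u₁ u₂| ≤
      ENNReal.ofReal (C * (1 + 1 / V₁) ^ 8 * (1 + 1 / V₂) ^ 8 * Real.exp (-(V₁ + V₂)) *
        Real.exp (-(j * H * V₁ * V₂) ^ (2 / 21 : ℝ) / C))

/-- Module D5 : the bound for `DD`. -/
def StD : Prop :=
  ∃ C : ℝ, 1 ≤ C ∧ ∃ A : ℕ, ∀ (L H V₁ V₂ : ℝ) (V R : ℕ), 1 ≤ L → 1 ≤ H → Real.log H ≤ L →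
    Good V → R ≠ 0 → (∀ p : ℕ, p.Prime → p ∣ V → p ∣ R) →
    Real.exp (-L) ≤ V₁ → Real.exp (-L) ≤ V₂ → (V : ℝ) ≤ Real.exp (3 * L) * (V₁ * V₂) →
    ∫⁻ v₁ in Ioi V₁, ∫⁻ v₂ in Ioi V₂, ENNReal.ofReal |DD H V R v₁ v₂| ≤
      ENNReal.ofReal (C * L ^ A * dv R ^ A * √(V : ℝ) *
        (V₁ * V₂) ^ (-1 / 2 - 1 / (4 * L)))

/-! ### M. the mollifier (block `m ≤ Y`, `L = log Y`) -/

/-- `y_k = exp(L e^{-k} / 8000)` -/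
noncomputable def yk (L : ℝ) (k : ℕ) : ℝ := Real.exp (L / 8000 * Real.exp (-(k : ℝ)))

open scoped Classical in
/-- the odd primes in `(y_{k+1}, y_k]` -/
noncomputable def Ik (L : ℝ) (k : ℕ) : Finset ℕ :=
  (Finset.range (⌊yk L k⌋₊ + 1)).filter (fun p => p.Prime ∧ p ≠ 2 ∧ yk L (k + 1) < p)

/-- the number of prime factors allowed in block `k` -/
noncomputable def lk (k : ℕ) : ℕ := ⌈Real.exp ((k : ℝ) / 2)⌉₊

/-- the Dirichlet inverse of `ca` (with `chi` inserted): `1 - c_p χ_p p^{-s} + χ_p² p^{1-2s}` -/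
noncomputable def muc (a : ℕ) : ℝ :=
  ∏ p ∈ a.primeFactors, (if a.factorization p = 1 then -(ca p : ℝ)
    else if a.factorization p = 2 then (p : ℝ) else 0)

open scoped Classical in
/-- the support of block `k` -/
noncomputable def Ak (L : ℝ) (k : ℕ) : Finset ℕ :=
  ((∏ p ∈ Ik L k, p ^ 2).divisors).filter (fun a => ArithmeticFunction.cardFactors a ≤ lk k)

/-- block `k` of the mollifier, at the shift `K / L` -/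
noncomputable def Mk (L K : ℝ) (k : ℕ) (X : ℕ → ℝ) : ℝ :=
  ∑ a ∈ Ak L k, muc a * (a : ℝ) ^ (-1 - K / L) * X a

/-- the product of the blocks `k₁ ≤ k < k₂` -/
noncomputable def Mf (L K : ℝ) (k₁ k₂ : ℕ) (X : ℕ → ℝ) : ℝ :=
  ∏ k ∈ Finset.Ico k₁ k₂, Mk L K k X

/-- multiplicativity used for `X = chi h ·` and for the random characters -/
def CM (X : ℕ → ℝ) : Prop := X 1 = 1 ∧ ∀ a b : ℕ, a ≠ 0 → b ≠ 0 → X (a * b) = X a * X b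

/-- Module M0 : the product of blocks as a Dirichlet polynomial. -/
def StPoly : Prop :=
  ∀ (L K : ℝ) (k₁ k₂ : ℕ), 1 ≤ L → 0 ≤ K → ∃ (S : Finset ℕ) (m : ℕ → ℝ),
    (∀ X : ℕ → ℝ, CM X → Mf L K k₁ k₂ X = ∑ a ∈ S, m a * X a) ∧
    (∀ a ∈ S, |m a| ≤ 1 ∧ Good a ∧ (a : ℝ) ≤ Real.exp (L / 1600 * Real.exp (-(k₁ : ℝ) / 2)) ∧
      ∀ p : ℕ, p.Prime → p ∣ a → (p : ℝ) ≤ yk L k₁)

/-! ### R. the random model -/

/-- the distribution of a random character at `p` -/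
noncomputable def wp (p : ℕ) (s : SignType) : ℝ :=
  if s = 0 then 1 / (p : ℝ) else (1 - 1 / (p : ℝ)) / 2

/-- the random character (zero at the primes `≥ N`) -/
noncomputable def Xf {N : ℕ} (ω : Fin N → SignType) (n : ℕ) : ℝ :=
  ∏ p ∈ n.primeFactors,
    (if h : p < N then ((ω ⟨p, h⟩ : SignType) : ℝ) else 0) ^ n.factorization p

/-- the expectation over the random characters -/
noncomputable def EN (N : ℕ) (G : (ℕ → ℝ) → ℝ) : ℝ :=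
  ∑ ω : Fin N → SignType, (∏ i : Fin N, wp i (ω i)) * G (Xf ω)

/-- the random Euler product over the odd primes `< N` -/
noncomputable def LN (N : ℕ) (X : ℕ → ℝ) (s : ℂ) : ℂ :=
  ∏ p ∈ N.primesBelow, if p = 2 then 1 else
    (1 - (ca p : ℂ) * (X p : ℂ) * (p : ℂ) ^ (-s) + (X p : ℂ) ^ 2 * (p : ℂ) ^ (1 - 2 * s))⁻¹

/-- Module R0 : sums over primes (Chebyshev type). -/
structure StPr : Prop where
  logp : ∃ C : ℝ, 1 ≤ C ∧ ∀ x : ℝ, 2 ≤ x →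
    ∑ p ∈ (Finset.range (⌊x⌋₊ + 1)).filter Nat.Prime, Real.log p / p ≤ C * Real.log x
  block : ∃ C : ℝ, 1 ≤ C ∧ ∀ (x y : ℝ), 2 ≤ x → x ≤ y → Real.log y ≤ 3 * Real.log x →
    ∑ p ∈ (Finset.Ioc ⌊x⌋₊ ⌊y⌋₊).filter Nat.Prime, 1 / (p : ℝ) ≤ C
  minlog : ∃ C : ℝ, 1 ≤ C ∧ ∀ (t y : ℝ), 0 ≤ t → 2 ≤ y →
    ∑ p ∈ (Finset.range (⌊y⌋₊ + 1)).filter Nat.Prime, min 1 (t * Real.log p) / p ≤
      C * (1 + Real.log (1 + t * Real.log y))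
  tail : ∃ C : ℝ, 1 ≤ C ∧ ∀ (σ y : ℝ) (N : ℕ), 0 < σ → σ ≤ 1 → 2 ≤ y →
    ∑ p ∈ (Finset.Ioo ⌊y⌋₊ N).filter Nat.Prime, (p : ℝ) ^ (-1 - σ) ≤
      C * Real.exp (-σ * Real.log y) * (1 + Real.log (1 + 1 / (σ * Real.log y)))

/-- Module R1 : orthogonality in the random model. -/
def StOrth : Prop :=
  ∀ (N n : ℕ), n ∈ Nat.smoothNumbers N → EN N (fun X => X n) = rho n

/-- Module R2 : second moment of the mollified random Euler product. -/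
def StR2 : Prop :=
  ∃ C : ℝ, 1 ≤ C ∧ ∃ A : ℕ, ∀ (L K σ τ : ℝ) (j N : ℕ), 1 ≤ L → 1 ≤ K → K ≤ L →
    1 / (2 * L) ≤ σ → σ ≤ 10 * K / L → yk L 0 < N →
    EN N (fun X => (Mf L K (2 * j) ⌈L⌉₊ X) ^ 2 * ‖LN N X (1 + σ + τ * Complex.I)‖ ^ 2) ≤
      C * (K * 2 ^ j) ^ A * (1 + |τ| * L / 2 ^ j) ^ A

/-- Module R3 : mollification at the shift `K / L` itself. -/
def StR3 : Prop :=
  ∃ C c : ℝ, 1 ≤ C ∧ 0 < c ∧ ∀ (L K : ℝ) (N : ℕ), 1 ≤ L → 1 ≤ K → K ≤ L → yk L 0 < N →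
    EN N (fun X => ‖(Mf L K 0 ⌈L⌉₊ X : ℂ) * LN N X (1 + K / L) - 1‖ ^ 2) ≤
      C * Real.exp (-c * √K)

/-- Module R4 : second moment of the first blocks. -/
def StR4 : Prop :=
  ∃ C : ℝ, 1 ≤ C ∧ ∀ (L K : ℝ) (k₂ N : ℕ), 1 ≤ L → 0 ≤ K → yk L 0 < N →
    EN N (fun X => (Mf L K 0 k₂ X) ^ 2) ≤ C ^ k₂ ∧
    EN N (fun X => (Mf L K 0 ⌈L⌉₊ X) ^ 2) ≤ C * L ^ C

/-! ### F. Fourier analysis -/

/-- Module F : Fourier representation of a smooth function. -/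
def StFour : Prop :=
  ∀ B : ℕ, ∃ C : ℝ, 1 ≤ C ∧ ∀ (w I₀ I₁ : ℝ) (k : ℝ → ℝ), 0 < w → ContDiff ℝ (B + 2 : ℕ) k →
    (∀ i ≤ B + 2, Integrable (iteratedDeriv i k)) →
    (∫ x, |k x|) ≤ I₀ → (∫ x, |iteratedDeriv (B + 2) k x|) ≤ I₁ →
    ∃ g : ℝ → ℂ, Continuous g ∧ Integrable g ∧
      (∀ x : ℝ, (k x : ℂ) = ∫ τ : ℝ, g τ * Complex.exp (τ * x * Complex.I)) ∧
      Integrable (fun τ => ‖g τ‖ * (1 + |τ| * w) ^ B) ∧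
      (∫ τ, ‖g τ‖ * (1 + |τ| * w) ^ B) ≤ C * (I₀ / w + w ^ (B + 1) * I₁)

/-! ### P. from the random model to the mean values -/

/-- `f(u) = h(log(uY))` -/
noncomputable def cfY (Y : ℕ) (h : ℝ → ℝ) (u : ℝ) : ℝ := h (Real.log (u * Y))

/-- Module P1 : a bound for the quadratic form by means of the random model. -/
def StPass : Prop :=
  ∀ (Y : ℕ) (S : Finset ℕ) (m : ℕ → ℝ) (Z w σ U b : ℝ) (B N₀ : ℕ) (h : ℝ → ℝ) (g : ℝ → ℂ),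
    1 ≤ Y → 0 < U → 0 < σ → σ ≤ 1 → 0 ≤ Z → 0 < w → Measurable h → (∀ x, |h x| ≤ b) →
    (∀ u, 0 < u → u < U → cfY Y h u = 0) →
    (∀ a ∈ S, a ≠ 0) → (∀ a ∈ S, ∀ p, p.Prime → p ∣ a → p < N₀) →
    Continuous g → Integrable g → Integrable (fun τ => ‖g τ‖ * (1 + |τ| * w) ^ B) →
    (∀ x : ℝ, (h x * Real.exp (-σ * x) : ℂ) = ∫ τ : ℝ, g τ * Complex.exp (τ * x * Complex.I)) →
    (∀ (N : ℕ) (τ : ℝ), N₀ ≤ N → EN N (fun X => (∑ a ∈ S, m a * X a) ^ 2 *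
      ‖LN N X (1 + σ + τ * Complex.I)‖ ^ 2) ≤ Z * (1 + |τ| * w) ^ (2 * B)) →
    ∑ a ∈ S, ∑ a' ∈ S, m a * m a' *
        ∑' p : ℕ × ℕ, bet (cfY Y h) p.1 * bet (cfY Y h) p.2 * rho (a * a' * p.1 * p.2) ≤
      16 * Z * ((Y : ℝ) ^ σ * ∫ τ, ‖g τ‖ * (1 + |τ| * w) ^ B) ^ 2

/-! ### W. mean values of mollified windows -/

/-- `w_j = log Y / (20 · 2^j)` -/
noncomputable def wj (Y : ℕ) (j : ℕ) : ℝ := Real.log Y / (20 * 2 ^ j)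

/-- the functional of the window `h` in the variable `x = log(uY)` -/
noncomputable def Fw (Y : ℕ) (h : ℝ → ℝ) (m : ℤ) : ℝ := Fn (cfY Y h) m

/-- a smooth step: `0` for `t ≤ 1`, `1` for `t ≥ 2` -/
noncomputable def ηf (t : ℝ) : ℝ := Real.smoothTransition (t - 1)

/-- the outer window: `0` for `x ≤ w₀`, `1` on `[2 w₀, 3/2 log Y]`, `0` for `x ≥ 3 log Y` -/
noncomputable def psi (Y : ℕ) (x : ℝ) : ℝ :=
  ηf (x / wj Y 0) * (1 - ηf (x / (3 / 2 * Real.log Y)))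

/-- the main value `4 Γ(1+z₀) π^{-1-z₀} e^K`, `z₀ = K / log Y` -/
noncomputable def cmain (Y : ℕ) (K : ℝ) : ℝ :=
  4 * Real.Gamma (1 + K / Real.log Y) * π ^ (-1 - K / Real.log Y) * Real.exp K

/-- Module W (THE statement consumed by the assembly; it hides the construction of the
mollifier): `M 0 = M j * Mr j` with
1. windows: for `h` smooth, supported in `[w_j, 3 log Y]`, `|h^{(i)}| ≤ b w_j^{-i}` for `i ≤ n`: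
   `∑ |M_j Fw h|² ≤ C Y (K 2^j)^A b²`;
2. the remaining blocks: `∑ |Mr_j|² ≤ C Y 2^{jA}`;
3. the whole mollifier: `∑ |M 0|² ≤ C Y (log Y)^A`;
4. the main term. -/
def StMoll : Prop :=
  ∃ (n A : ℕ) (C c : ℝ), 1 ≤ C ∧ 0 < c ∧ ∀ (Y : ℕ) (K : ℝ), 3 ≤ Y → 1 ≤ K →
    K ≤ Real.log Y ^ (1 / 8 : ℝ) → ∃ M Mr : ℕ → ℕ → ℝ,
    (∀ j m : ℕ, (2 : ℝ) ^ j ≤ Real.log Y ^ (1 / 4 : ℝ) → M 0 m = M j m * Mr j m) ∧
    (∀ (j : ℕ) (h : ℝ → ℝ) (b : ℝ), (2 : ℝ) ^ j ≤ Real.log Y ^ (1 / 4 : ℝ) → ContDiff ℝ n h →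
      (∀ x, h x ≠ 0 → wj Y j ≤ x ∧ x ≤ 3 * Real.log Y) → 0 ≤ b →
      (∀ i ≤ n, ∀ x, |iteratedDeriv i h x| ≤ b * (wj Y j)⁻¹ ^ i) →
      ∑ m ∈ sqf Y, (M j m * Fw Y h m) ^ 2 ≤ C * Y * (K * 2 ^ j) ^ A * b ^ 2) ∧
    (∀ j : ℕ, (2 : ℝ) ^ j ≤ Real.log Y ^ (1 / 4 : ℝ) →
      ∑ m ∈ sqf Y, (Mr j m) ^ 2 ≤ C * Y * (2 ^ j) ^ A) ∧
    ∑ m ∈ sqf Y, (M 0 m) ^ 2 ≤ C * Y * Real.log Y ^ A ∧
    ∑ m ∈ sqf Y, (M 0 m * Fw Y (fun x => psi Y x * Real.exp (K / Real.log Y * x)) m -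
      cmain Y K) ^ 2 ≤ C * Y * Real.exp (2 * K - c * √K)

/-! ### V. vanishing -/

/-- `∫ theta m u (log u)^i du = 0` for all `i < r` -/
def Van (m r : ℕ) : Prop := ∀ i < r, ∫ u in Ioi (0 : ℝ), theta m u * Real.log u ^ i = 0

/-- Module V1 : the order of vanishing at `s = 1`. -/
def StVan1 : Prop :=
  ∀ D : ℤ, IsFund D → ∃ m : ℕ, 0 < m ∧ Squarefree m ∧ (D.natAbs = m ∨ D.natAbs = 4 * m) ∧
    Van m (aRank D)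

/-- Module V2 : the folded identity. -/
def StVan2 : Prop :=
  ∀ m : ℕ, 0 < m → Squarefree m → ∃ κ : ℝ, (κ = 1 ∨ κ = -1) ∧ ∀ (r Y : ℕ) (P : Polynomial ℝ),
    1 ≤ Y → Van m r → P.degree < r →
    ∫ u in Ioi (1 / √(Qm m)), theta m u * (P.eval (Real.log (u * Y)) +
      κ * P.eval (2 * Real.log (Y / √(Qm m)) - Real.log (u * Y))) = 0

/-! ### I. assembly -/

/-- `∑_{a ≤ i < b} (z x)^i / i!` -/
noncomputable def Gp (z : ℝ) (a b : ℕ) (x : ℝ) : ℝ :=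
  ∑ i ∈ Finset.Ico a b, (z * x) ^ i / (i.factorial : ℝ)

/-- the window between `w_{j+1}` and `2 w_j = 4 w_{j+1}` -/
noncomputable def Wn (Y j : ℕ) (x : ℝ) : ℝ := ηf (x / wj Y (j + 1)) - ηf (x / wj Y j)

/-- Module I1 : derivatives of the window functions (`z₀ = K / log Y`). -/
structure StWf : Prop where
  smooth : ∀ (Y j n : ℕ), 3 ≤ Y → ContDiff ℝ n (Wn Y j) ∧ ContDiff ℝ n (psi Y)
  near : ∀ n : ℕ, ∃ C : ℝ, 1 ≤ C ∧ ∀ (Y j a b : ℕ) (K : ℝ), 3 ≤ Y → 1 ≤ K → ∀ i ≤ n, ∀ x : ℝ,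
    |iteratedDeriv i (fun x => Wn Y j x * Gp (K / Real.log Y) a b x) x| ≤
      C * K ^ n * (K / 2 ^ j) ^ a * Real.exp (K / 10) * (wj Y (j + 1))⁻¹ ^ i ∧
    |iteratedDeriv i (fun x => Wn Y j x * Gp (K / Real.log Y) a b (-x)) x| ≤
      C * K ^ n * (K / 2 ^ j) ^ a * Real.exp (K / 10) * (wj Y (j + 1))⁻¹ ^ i
  outer : ∀ n : ℕ, ∃ C : ℝ, 1 ≤ C ∧ ∀ (Y a b : ℕ) (K : ℝ), 3 ≤ Y → 1 ≤ K → ∀ i ≤ n, ∀ x : ℝ,
    (20 * K ≤ b → |iteratedDeriv i (fun x => psi Y x * (Gp (K / Real.log Y) a b x -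
      Real.exp (K / Real.log Y * x))) x| ≤ C * (1 + 3 * K) ^ (a + n) * (wj Y 0)⁻¹ ^ i) ∧
    (10 * K ≤ b → |iteratedDeriv i (fun x => psi Y x * Gp (K / Real.log Y) a b (-x)) x| ≤
      C * (1 + 3 * K) ^ (a + n) * (wj Y 0)⁻¹ ^ i) ∧
    |iteratedDeriv i (fun x => psi Y x * Gp (K / Real.log Y) a b (-x)) x| ≤
      C * (1 + 3 * K) ^ n * Real.exp (3 * K) * (wj Y 0)⁻¹ ^ i

open scoped Classical in
/-- Module I2 : the bound for one block. -/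
def StBlock : Prop :=
  ∃ c : ℝ, 0 < c ∧ ∀ B : ℕ, ∃ C : ℝ, 1 ≤ C ∧ ∀ (Y r : ℕ), 3 ≤ Y →
    (((sqf Y).filter (fun m => Y < 2 * m ∧ Van m r)).card : ℝ) ≤
      C * Y * (Real.exp (-c * √r) + Real.log Y ^ (-(B : ℝ)))

/-! ### Z. the final statement -/

/-- the density form of Goldfeld's conjecture for the twists of `y² = x³ - x` -/
def DensityForm : Prop := ∀ j : ℕ, j ≤ 1 →
  Filter.Tendsto (fun X : ℕ => (((Fam X).filter (fun D => aRank D = j)).card : ℝ) / (Fam X).card)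
    Filter.atTop (nhds (1 / 2))

/-- Module Z : the final statement. -/
def StFin3 : Prop :=
  (∀ D : ℤ, IsFund D → IsLFunction D (LTwist D) ∧ (∀ L, IsLFunction D L → L = LTwist D) ∧
    analyticOrderAt (LTwist D) 1 = (aRank D : ℕ∞)) ∧
  (∃ c : ℝ, 0 < c ∧ ∀ B : ℕ, ∃ C : ℝ, 0 < C ∧ ∀ X : ℕ, 3 ≤ X → ∀ z : ℝ, 0 ≤ z →
    (((Fam X).filter (fun D => z ≤ (aRank D : ℝ))).card : ℝ) ≤
      C * ((Fam X).card : ℝ) * (Real.exp (-c * √z) + Real.log X ^ (-(B : ℝ)))) ∧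
  (∀ k : ℕ, ∃ C : ℝ, 0 < C ∧ ∀ X : ℕ, 3 ≤ X →
    ∑ D ∈ Fam X, (aRank D : ℝ) ^ k ≤ C * ((Fam X).card : ℝ)) ∧
  (DensityForm → ∀ k : ℕ, 1 ≤ k →
    Filter.Tendsto (fun X : ℕ => (∑ D ∈ Fam X, (aRank D : ℝ) ^ k) / (Fam X).card)
      Filter.atTop (nhds (1 / 2)))

end P004
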