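import Vale.Agent.P004.H503.AsmG

/-!
# P004, assembly: the bound for one block
-/

open Real MeasureTheory Set
open scoped ENNReal

namespace P004
namespace Asm

/-- **The estimate for one block.** -/
theorem core (hc : StCoef) (hFE : StFE) (hFull : StFull) (hV : StVan2) (hWf : StWf)
    (hMoll : StMoll) : ∃ c : ℝ, 0 < c ∧ ∀ B : ℕ, ∃ C : ℝ, 1 ≤ C ∧ ∀ (Y b : ℕ),
    100 ≤ Real.log Y → 20 ≤ b → ((b : ℝ) / 20) ≤ Real.log Y ^ (1 / 8 : ℝ) →
    ∀ S : Finset ℕ, S ⊆ sqf Y → (∀ m ∈ S, Y < 2 * m) → (∀ m ∈ S, Van m b) →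
    (S.card : ℝ) ≤ C * Y * (Real.exp (-c * √(b / 20)) + Real.log Y ^ (-(B : ℝ))) := by
  obtain ⟨n, A, Cm, cm, hCm, hcm, hmoll⟩ := hMoll
  obtain ⟨Cf, hCf, Af, hfull⟩ := hFull
  obtain ⟨Cn, hCn, hnear⟩ := hWf.near n
  obtain ⟨Co, hCo, houter⟩ := hWf.outer n
  obtain ⟨c₁, hc₁, hcmain⟩ := cmain_ge
  obtain ⟨c₃, hc₃0, hc₃m, hc₃⟩ : ∃ c₃ : ℝ, 0 < c₃ ∧ c₃ ≤ cm / 2 ∧ c₃ ≤ 1 / 2 :=
    ⟨min (cm / 2) (1 / 2), by positivity, min_le_left _ _, min_le_right _ _⟩
  refine ⟨c₃, hc₃0, fun B => ?_⟩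
  -- the number of low order terms
  obtain ⟨a, ha⟩ : ∃ a : ℕ, a = 2 * A + 1 + 8 * (A + Af + 1 + B) := ⟨_, rfl⟩
  obtain ⟨P, hP1, hP⟩ : ∃ P : ℝ, 1 ≤ P ∧ ∀ K : ℝ, 0 ≤ K → ∀ D ≤ A + n + a,
      (1 + 3 * K) ^ D ≤ P * Real.exp (K / 4) := by
    obtain ⟨P, hP1, hP⟩ := poly_exp (A + n + a)
    refine ⟨P, hP1, fun K hK D hD => le_trans ?_ (hP K hK)⟩
    exact pow_le_pow_right₀ (by linarith) hD
  have hC0 := K1.C0_nonneg
  obtain ⟨κ₃, hκ₃, hκ₃0⟩ : ∃ κ₃ : ℝ, κ₃ = √Cm * (2 * Real.exp 1) * √Cf + √Cm *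
      ((2 * K1.C0 * (a.factorial : ℝ) * Real.exp 3) * ((2 + 2 * (A + B)).factorial : ℝ)) ∧
      0 ≤ κ₃ := ⟨_, rfl, by positivity⟩
  refine ⟨1 + ((√Cm * (1 + Co * P * (1 + Real.exp 1))) ^ 2 / c₁ ^ 2 +
      2 * (Cm * Cn * (2 * 4 ^ A) * (1 + Real.exp 2.2) * P + κ₃) / c₁), ?_,
      fun Y b hL hb20 hb8 S hS hS2 hSV => ?_⟩
  · have : 0 ≤ (√Cm * (1 + Co * P * (1 + Real.exp 1))) ^ 2 / c₁ ^ 2 +
      2 * (Cm * Cn * (2 * 4 ^ A) * (1 + Real.exp 2.2) * P + κ₃) / c₁ := by positivity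
    linarith
  have hY : 3 ≤ Y := by
    by_contra h
    push Not at h
    have h1 : (Y : ℝ) ≤ 2 := by exact_mod_cast (by omega : Y ≤ 2)
    have h2 : Real.log Y ≤ 2 := by
      rcases Nat.eq_zero_or_pos Y with h3 | h3
      · rw [h3]; simp
      · have h4 : (0 : ℝ) < Y := by exact_mod_cast h3
        linarith [Real.log_le_sub_one_of_pos h4]
    linarith
  have hY0 : (0 : ℝ) < Y := by exact_mod_cast (by omega : 0 < Y)
  have hL0 : 0 < Real.log Y := by linarith
  have hL1 : 1 ≤ Real.log Y := by linarith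
  obtain ⟨K, hK⟩ : ∃ K : ℝ, K = (b : ℝ) / 20 := ⟨_, rfl⟩
  rw [← hK] at hb8 ⊢
  have hbK : (b : ℝ) = 20 * K := by rw [hK]; ring
  have hK1 : 1 ≤ K := by
    rw [hK, le_div_iff₀ (by norm_num)]
    have : (20 : ℝ) ≤ b := by exact_mod_cast hb20
    linarith
  have hK0 : 0 ≤ K := by linarith
  have hz0 : 0 ≤ K / Real.log Y := by positivity
  have hz6 : K / Real.log Y ≤ 1 / 6 := by
    rw [div_le_iff₀ hL0]
    have h1 : K ≤ Real.log Y ^ (1 / 2 : ℝ) :=
      hb8.trans (Real.rpow_le_rpow_of_exponent_le hL1 (by norm_num))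
    rw [← Real.sqrt_eq_rpow] at h1
    have h2 : √(Real.log Y) * √(Real.log Y) = Real.log Y := Real.mul_self_sqrt hL0.le
    have h3 : 10 ≤ √(Real.log Y) := Real.le_sqrt_of_sq_le (by linarith)
    nlinarith
  obtain ⟨M, Mr, hMM, hWin, hMr, hM0, hMain⟩ := hmoll Y K hY hK1 hb8
  obtain ⟨J, hJ1, hJ2⟩ := exists_J hL1
  have hj4 : ∀ j ≤ J, (2 : ℝ) ^ j ≤ Real.log Y ^ (1 / 4 : ℝ) := fun j hj =>
    (pow_le_pow_right₀ (by norm_num) hj).trans hJ1
  -- the summed inequality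
  have hid : ∀ m ∈ S, ∃ κ : ℝ, (κ = 1 ∨ κ = -1) ∧
      ∫ u in Ioi (1 / √(Qm m)), theta m u * (Gp (K / Real.log Y) a b (Real.log (u * Y)) +
      κ * Gp (K / Real.log Y) a b (2 * Real.log (Y / √(Qm m)) - Real.log (u * Y))) = 0 := by
    intro m hm
    have hms := hS hm
    unfold sqf at hms
    rw [Finset.mem_filter, Finset.mem_Icc] at hms
    obtain ⟨κ, hκ, h⟩ := hV m (by omega) hms.2
    refine ⟨κ, hκ, ?_⟩
    have h1 := h b Y (Pol (K / Real.log Y) a b) (by omega) (hSV m hm)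
      (Pol_degree (K / Real.log Y) a b)
    simp only [Pol_eval] at h1
    exact h1
  have hsum := summed hc hFE hY hz0 (by linarith) a b J hS hS2 hid (M := M) (Mr := Mr)
    (fun m j hj => hMM (j + 1) m (hj4 (j + 1) (by omega))) (cmain Y K)
  have hs0 : 0 ≤ √(Cm * Y) := Real.sqrt_nonneg _
  have hwin : WinHyp Y n A J K (√(Cm * Y)) M := by
    intro j h β hj h1 h2 h3 h4
    refine (nY_le (hWin j h β (hj4 j hj) h1 h2 h3 h4)).trans ?_
    apply sqrt_bound A (by linarith) hY0.le ?_ h3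
    have : (1 : ℝ) ≤ 2 ^ j := one_le_pow₀ (by norm_num)
    nlinarith
  have hMr' : ∀ j ≤ J, nY Y (Mr j) ≤ √(Cm * Y) * (2 ^ j) ^ A := by
    intro j hj
    refine (nY_le (hMr j (hj4 j hj))).trans ?_
    exact sqrt_bound' A (by linarith) hY0.le (one_le_pow₀ (by norm_num))
  have hM0' : nY Y (M 0) ≤ √(Cm * Y) * Real.log Y ^ A :=
    (nY_le hM0).trans (sqrt_bound' A (by linarith) hY0.le hL1)
  have hzq : ∀ j < J, K / Real.log Y ≤ K / 2 ^ j := by
    intro j hj
    refine div_le_div_of_nonneg_left hK0 (by positivity) ?_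
    refine (hj4 j hj.le).trans ?_
    calc Real.log Y ^ (1 / 4 : ℝ) ≤ Real.log Y ^ (1 : ℝ) :=
          Real.rpow_le_rpow_of_exponent_le hL1 (by norm_num)
      _ = _ := Real.rpow_one _
  have N1 : nY Y (fun m => M 0 m * Fw Y (fun x => psi Y x * Real.exp (K / Real.log Y * x)) m -
      cmain Y K) ≤ √(Cm * Y) * Real.exp (K - cm / 2 * √K) := by
    refine (nY_le hMain).trans ?_
    rw [Real.sqrt_mul (by positivity)]
    refine mul_le_mul_of_nonneg_left ?_ (Real.sqrt_nonneg _)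
    apply Real.sqrt_le_iff.2
    refine ⟨(Real.exp_pos _).le, ?_⟩
    rw [← Real.exp_nat_mul, Real.exp_le_exp]
    push_cast
    linarith
  have N2 := norm2 hWf hY hK1 hCo hwin houter a b hbK
  have N3 := norm3 hWf hY hK1 hCo hs0 hwin houter a b hbK hz0 hz6
  have N4 := norm4 hWf hY hK1 hCn hs0 hwin hMr' hnear a b (by omega) hz0 (by linarith) hzq
  obtain ⟨hsc1, hsc2⟩ := inner_scale hL hK0 hb8 hJ2
  have hwJ := wj_pos hY J
  have hSJ : ∑ m ∈ sqf Y, (Jm m).toReal ≤ Cf * Y * Real.log Y ^ Af := by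
    have h1 := hfull Y hY
    have hfin : ∀ m ∈ sqf Y, Jm m ≠ ⊤ := by
      intro m hm h2
      have h3 : Jm m ≤ sumJ Y := Finset.single_le_sum (fun _ _ => zero_le) hm
      rw [h2, top_le_iff] at h3
      rw [h3, top_le_iff] at h1
      exact ENNReal.ofReal_ne_top h1
    rw [← ENNReal.toReal_sum hfin]
    exact ENNReal.toReal_le_of_le_ofReal (by positivity) h1
  have N5 := norm5 A Af B a ha (by linarith : (0:ℝ) ≤ Cm) (by linarith : (0:ℝ) ≤ Cf) hY0.le hL1
    hM0' (ζ := K / Real.log Y * (2 * wj Y J + 3)) (by positivity) hsc1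
    (Finset.sum_nonneg fun m _ => ENNReal.toReal_nonneg) hSJ
    (w := 2 * wj Y J + 3) (by positivity) hsc2
  have N6 := norm6 A B hY (by linarith : (0:ℝ) ≤ Cm)
    (mul_nonneg (mul_nonneg (mul_nonneg zero_le_two hC0) (Nat.cast_nonneg _))
      (Real.exp_pos _).le : 0 ≤ 2 * K1.C0 * (a.factorial : ℝ) * Real.exp 3) hM0'
  have hN0 : (0 : ℝ) ≤ (S.card : ℝ) := Nat.cast_nonneg _
  have hfin := conclude (N := S.card) (Y := Y) (K := K) (Cm := Cm) (cm := cm) (c₁ := c₁)
    (c₃ := c₃) (Co := Co) (Cn := Cn) (P := P) (κ₃ := κ₃)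
    (LB := Real.log Y ^ (-(B : ℝ))) (cM := cmain Y K) A a n hN0 hY0 hK1 (by linarith) hc₁
    (by linarith) (by linarith) (by linarith) hκ₃0 (by positivity)
    (hcmain Y K hY hK0 (by
      refine hb8.trans ?_
      calc Real.log Y ^ (1 / 8 : ℝ) ≤ Real.log Y ^ (1 : ℝ) :=
            Real.rpow_le_rpow_of_exponent_le hL1 (by norm_num)
        _ = _ := Real.rpow_one _)) hc₃0.le hc₃m hc₃ (hP K hK0) ?_
  · refine hfin.trans ?_
    have h1 : 0 ≤ Real.exp (-c₃ * √K) + Real.log Y ^ (-(B : ℝ)) := by positivity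
    refine mul_le_mul_of_nonneg_right ?_ h1
    refine mul_le_mul_of_nonneg_right ?_ hY0.le
    exact le_add_of_nonneg_left zero_le_one
  · refine hsum.trans ?_
    have q1 := mul_le_mul_of_nonneg_left (add_le_add (add_le_add N1 N2) N3)
      (Real.sqrt_nonneg (S.card : ℝ))
    have q2 : √Cm * (2 * Real.exp 1) * √Cf * (Y * Real.log Y ^ (-(B : ℝ))) +
        √Cm * (2 * K1.C0 * (a.factorial : ℝ) * Real.exp 3 *
          ((2 + 2 * (A + B)).factorial : ℝ)) * (Y * Real.log Y ^ (-(B : ℝ))) =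
        κ₃ * (Y * Real.log Y ^ (-(B : ℝ))) := by
      rw [hκ₃]; ring
    linarith

end Asm
end P004

namespace P004

/-- Module I2. -/
theorem pfBlock (hc : StCoef) (hFE : StFE) (hFull : StFull) (hV : StVan2) (hWf : StWf)
    (hMoll : StMoll) : StBlock := by
  classical
  obtain ⟨c₀, hc₀, hcore⟩ := Asm.core hc hFE hFull hV hWf hMoll
  refine ⟨c₀ / 5, by positivity, fun B => ?_⟩
  obtain ⟨C, hC, hcore⟩ := hcore B
  have hF : (1 : ℝ) ≤ ((16 * B).factorial : ℝ) := by exact_mod_cast Nat.factorial_pos _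
  obtain ⟨D, hD, hDdef⟩ : ∃ D : ℝ, 0 ≤ D ∧ D = ((16 * B).factorial : ℝ) * (2 / c₀) ^ (16 * B) :=
    ⟨_, by positivity, rfl⟩
  refine ⟨100 ^ B + Real.exp c₀ + C * (1 + D), ?_, fun Y r hY => ?_⟩
  · have h1 : (1 : ℝ) ≤ 100 ^ B := one_le_pow₀ (by norm_num)
    have h2 := Real.exp_pos c₀
    have h3 : 0 ≤ C * (1 + D) := by positivity
    linarith
  have hY0 : (0 : ℝ) < Y := by exact_mod_cast (by omega : 0 < Y)
  have hL1 : 1 ≤ Real.log Y := by
    have h3 : (3 : ℝ) ≤ Y := by exact_mod_cast hY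
    rw [Real.le_log_iff_exp_le hY0]
    linarith [Real.exp_one_lt_d9]
  have hL0 : 0 < Real.log Y := by linarith
  obtain ⟨L, hL⟩ : ∃ L : ℝ, L = Real.log Y := ⟨_, rfl⟩
  rw [← hL] at hL1 hL0 ⊢
  obtain ⟨S, hSdef⟩ : ∃ S : Finset ℕ, S = (sqf Y).filter (fun m => Y < 2 * m ∧ Van m r) :=
    ⟨_, rfl⟩
  rw [← hSdef]
  have hSsub : S ⊆ sqf Y := by rw [hSdef]; exact Finset.filter_subset _ _
  have hScard : (S.card : ℝ) ≤ Y := by
    have h : S.card ≤ Y := by
      refine (Finset.card_le_card hSsub).trans ?_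
      unfold sqf
      refine (Finset.card_filter_le _ _).trans ?_
      simp
    exact_mod_cast h
  have hS2 : ∀ m ∈ S, Y < 2 * m := fun m hm => by
    rw [hSdef] at hm; exact (Finset.mem_filter.1 hm).2.1
  have hSV : ∀ m ∈ S, Van m r := fun m hm => by
    rw [hSdef] at hm; exact (Finset.mem_filter.1 hm).2.2
  have hE := Real.exp_pos (-(c₀ / 5) * √r)
  have hLB : 0 < L ^ (-(B : ℝ)) := by positivity
  have hEc := Real.exp_pos c₀
  have h100 : (0 : ℝ) < 100 ^ B := by positivity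
  have hCD : 0 ≤ C * (1 + D) := by positivity
  have hsum0 : 0 < Real.exp (-(c₀ / 5) * √r) + L ^ (-(B : ℝ)) := by positivity
  -- it suffices to bound by one of the three summands
  have hred : ∀ T : ℝ, T ≤ 100 ^ B + Real.exp c₀ + C * (1 + D) →
      (S.card : ℝ) ≤ T * Y * (Real.exp (-(c₀ / 5) * √r) + L ^ (-(B : ℝ))) →
      (S.card : ℝ) ≤ (100 ^ B + Real.exp c₀ + C * (1 + D)) * Y *
        (Real.exp (-(c₀ / 5) * √r) + L ^ (-(B : ℝ))) := by
    intro T hT h
    refine h.trans ?_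
    gcongr
  by_cases hL100 : L < 100
  · refine hred (100 ^ B) (by linarith) ?_
    have h1 : 1 ≤ 100 ^ B * L ^ (-(B : ℝ)) := by
      rw [Real.rpow_neg hL0.le, Real.rpow_natCast, ← div_eq_mul_inv, le_div_iff₀ (by positivity),
        one_mul]
      exact pow_le_pow_left₀ hL0.le hL100.le B
    calc (S.card : ℝ) ≤ Y * 1 := by linarith
      _ ≤ Y * (100 ^ B * L ^ (-(B : ℝ))) := by gcongr
      _ ≤ Y * (100 ^ B * (Real.exp (-(c₀ / 5) * √r) + L ^ (-(B : ℝ)))) := by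
          gcongr
          linarith
      _ = _ := by ring
  · push Not at hL100
    have hL8 : 1 ≤ L ^ (1 / 8 : ℝ) := Real.one_le_rpow hL1 (by norm_num)
    by_cases hr20 : r < 20
    · refine hred (Real.exp c₀) (by linarith) ?_
      have h1 : 1 ≤ Real.exp c₀ * Real.exp (-(c₀ / 5) * √r) := by
        rw [← Real.exp_add]
        apply Real.one_le_exp
        have h2 : √(r : ℝ) ≤ 5 := by
          rw [Real.sqrt_le_left (by norm_num)]
          have : (r : ℝ) ≤ 20 := by exact_mod_cast hr20.le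
          linarith
        nlinarith
      calc (S.card : ℝ) ≤ Y * 1 := by linarith
        _ ≤ Y * (Real.exp c₀ * Real.exp (-(c₀ / 5) * √r)) := by gcongr
        _ ≤ Y * (Real.exp c₀ * (Real.exp (-(c₀ / 5) * √r) + L ^ (-(B : ℝ)))) := by
            gcongr
            linarith
        _ = _ := by ring
    · push Not at hr20
      refine hred (C * (1 + D)) (by linarith) ?_
      by_cases hrL : (r : ℝ) / 20 ≤ L ^ (1 / 8 : ℝ)
      · have h1 := hcore Y r (by rw [← hL]; exact hL100) hr20 (by rw [← hL]; exact hrL) S hSsub hS2 hSV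
        rw [← hL] at h1
        refine h1.trans ?_
        have h2 : Real.exp (-c₀ * √((r : ℝ) / 20)) ≤ Real.exp (-(c₀ / 5) * √r) := by
          rw [Real.exp_le_exp]
          have h3 : √(r : ℝ) / 5 ≤ √((r : ℝ) / 20) := by
            apply Real.le_sqrt_of_sq_le
            rw [div_pow, Real.sq_sqrt (by positivity)]
            have : (0 : ℝ) ≤ r := by positivity
            linarith
          nlinarith
        have h4 : C ≤ C * (1 + D) := by nlinarith
        gcongr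
      · push Not at hrL
        -- the truncated rank
        obtain ⟨b, hb⟩ : ∃ b : ℕ, b = ⌊20 * L ^ (1 / 8 : ℝ)⌋₊ := ⟨_, rfl⟩
        have hbr : b ≤ r := by
          rw [hb]
          apply Nat.floor_le_of_le
          rw [lt_div_iff₀ (by norm_num)] at hrL
          linarith
        have hb20 : 20 ≤ b := by
          rw [hb]
          apply Nat.le_floor
          push_cast
          linarith
        have hbL : (b : ℝ) / 20 ≤ L ^ (1 / 8 : ℝ) := by
          rw [div_le_iff₀ (by norm_num), hb]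
          have := Nat.floor_le (a := 20 * L ^ (1 / 8 : ℝ)) (by positivity)
          linarith
        have hbL' : L ^ (1 / 8 : ℝ) / 4 ≤ (b : ℝ) / 20 := by
          have := Nat.lt_floor_add_one (20 * L ^ (1 / 8 : ℝ))
          rw [← hb] at this
          rw [div_le_div_iff₀ (by norm_num) (by norm_num)]
          linarith
        have h1 := hcore Y b (by rw [← hL]; exact hL100) hb20 (by rw [← hL]; exact hbL) S hSsub
          hS2 (fun m hm i hi => hSV m hm i (by omega))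
        rw [← hL] at h1
        refine h1.trans ?_
        have h16 : √(L ^ (1 / 8 : ℝ) / 4) = L ^ (1 / 16 : ℝ) / 2 := by
          rw [Real.sqrt_div (by positivity), show (4 : ℝ) = 2 ^ 2 by norm_num,
            Real.sqrt_sq (by norm_num), Real.sqrt_eq_rpow, ← Real.rpow_mul hL0.le]
          norm_num
        have h2 : Real.exp (-c₀ * √((b : ℝ) / 20)) ≤ D * L ^ (-(B : ℝ)) := by
          have h3 : L ^ (1 / 16 : ℝ) / 2 ≤ √((b : ℝ) / 20) := by
            rw [← h16]; exact Real.sqrt_le_sqrt hbL'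
          have h4 := Real.pow_div_factorial_le_exp (c₀ * (L ^ (1 / 16 : ℝ) / 2))
            (by positivity) (16 * B)
          have h5 : Real.exp (c₀ * (L ^ (1 / 16 : ℝ) / 2)) ≤ Real.exp (c₀ * √((b : ℝ) / 20)) := by
            rw [Real.exp_le_exp]
            exact mul_le_mul_of_nonneg_left h3 hc₀.le
          have h6 : (L ^ (1 / 16 : ℝ)) ^ (16 * B) = L ^ B := by
            rw [← Real.rpow_natCast, ← Real.rpow_mul hL0.le, ← Real.rpow_natCast L B]
            congr 1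
            push_cast
            ring
          have h7 : (c₀ * (L ^ (1 / 16 : ℝ) / 2)) ^ (16 * B) = L ^ B / (2 / c₀) ^ (16 * B) := by
            rw [← h6, mul_pow, div_pow, div_pow]
            field_simp
          rw [h7] at h4
          rw [neg_mul, Real.exp_neg, Real.rpow_neg hL0.le, Real.rpow_natCast, ← div_eq_mul_inv,
            hDdef]
          rw [inv_le_comm₀ (Real.exp_pos _) (by positivity)]
          refine le_trans (le_of_eq ?_) (h4.trans h5)
          field_simp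
        calc C * Y * (Real.exp (-c₀ * √((b : ℝ) / 20)) + L ^ (-(B : ℝ))) ≤
              C * Y * (D * L ^ (-(B : ℝ)) + L ^ (-(B : ℝ))) := by gcongr
          _ = C * (1 + D) * Y * L ^ (-(B : ℝ)) := by ring
          _ ≤ C * (1 + D) * Y * (Real.exp (-(c₀ / 5) * √r) + L ^ (-(B : ℝ))) := by
              gcongr
              linarith

end P004
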