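import Vale.Agent.P004.H503.Iface3
import Vale.Agent.P004.H760.Vanish

/-!
# P004, assembly, part A: the identity for one `m`
-/

open Real MeasureTheory Set
open scoped ENNReal

namespace P004
namespace Asm

/-! ### the step function -/

lemma ηf_nonneg (t : ℝ) : 0 ≤ ηf t := Real.smoothTransition.nonneg _

lemma ηf_le_one (t : ℝ) : ηf t ≤ 1 := Real.smoothTransition.le_one _

lemma ηf_zero {t : ℝ} (h : t ≤ 1) : ηf t = 0 :=
  Real.smoothTransition.zero_of_nonpos (by linarith)

lemma ηf_one {t : ℝ} (h : 2 ≤ t) : ηf t = 1 :=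
  Real.smoothTransition.one_of_one_le (by linarith)

lemma ηf_cont : Continuous ηf :=
  Real.smoothTransition.continuous.comp (continuous_id.sub continuous_const)

lemma wj_pos {Y : ℕ} (hY : 3 ≤ Y) (j : ℕ) : 0 < wj Y j := by
  have : (1 : ℝ) < Y := by exact_mod_cast (by omega : 1 < Y)
  have := Real.log_pos this
  unfold wj; positivity

lemma wj_succ (Y j : ℕ) : wj Y j = 2 * wj Y (j + 1) := by
  unfold wj
  rw [pow_succ]
  field_simp

lemma Wn_cont (Y j : ℕ) : Continuous (Wn Y j) := by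
  unfold Wn
  exact (ηf_cont.comp (continuous_id.div_const _)).sub (ηf_cont.comp (continuous_id.div_const _))

lemma psi_cont (Y : ℕ) : Continuous (psi Y) := by
  unfold psi
  exact (ηf_cont.comp (continuous_id.div_const _)).mul
    (continuous_const.sub (ηf_cont.comp (continuous_id.div_const _)))

lemma Wn_abs_le (Y j : ℕ) (x : ℝ) : |Wn Y j x| ≤ 1 := by
  unfold Wn
  rw [abs_le]
  have h1 := ηf_nonneg (x / wj Y (j + 1))
  have h2 := ηf_nonneg (x / wj Y j)
  have h3 := ηf_le_one (x / wj Y (j + 1))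
  have h4 := ηf_le_one (x / wj Y j)
  constructor <;> linarith

lemma psi_abs_le (Y : ℕ) (x : ℝ) : |psi Y x| ≤ 1 := by
  unfold psi
  have h1 := ηf_nonneg (x / wj Y 0)
  have h2 := ηf_nonneg (x / (3 / 2 * Real.log Y))
  have h3 := ηf_le_one (x / wj Y 0)
  have h4 := ηf_le_one (x / (3 / 2 * Real.log Y))
  rw [abs_mul, abs_of_nonneg h1, abs_of_nonneg (by linarith)]
  calc _ ≤ (1 : ℝ) * 1 := mul_le_mul h3 (by linarith) (by linarith) zero_le_one
    _ = 1 := one_mul 1

lemma Wn_supp {Y : ℕ} (hY : 3 ≤ Y) (j : ℕ) {x : ℝ} (h : Wn Y j x ≠ 0) :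
    wj Y (j + 1) ≤ x ∧ x ≤ 2 * wj Y j := by
  have h1 := wj_pos hY (j + 1)
  have h2 := wj_pos hY j
  constructor
  · by_contra hx
    push Not at hx
    apply h
    unfold Wn
    have e1 : x / wj Y (j + 1) ≤ 1 := by rw [div_le_one h1]; exact hx.le
    have e2 : x / wj Y j ≤ 1 := by
      rw [div_le_one h2, wj_succ]; linarith
    rw [ηf_zero e1, ηf_zero e2, sub_zero]
  · by_contra hx
    push Not at hx
    apply h
    unfold Wn
    have e2 : 2 ≤ x / wj Y j := by rw [le_div_iff₀ h2]; exact hx.le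
    have e1 : 2 ≤ x / wj Y (j + 1) := by
      rw [le_div_iff₀ h1]; rw [wj_succ] at hx; linarith
    rw [ηf_one e1, ηf_one e2, sub_self]

lemma psi_supp {Y : ℕ} (hY : 3 ≤ Y) {x : ℝ} (h : psi Y x ≠ 0) :
    wj Y 0 ≤ x ∧ x ≤ 3 * Real.log Y := by
  have h1 := wj_pos hY 0
  have : (1 : ℝ) < Y := by exact_mod_cast (by omega : 1 < Y)
  have h2 := Real.log_pos this
  constructor
  · by_contra hx
    push Not at hx
    apply h
    unfold psi
    have e1 : x / wj Y 0 ≤ 1 := by rw [div_le_one h1]; exact hx.le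
    rw [ηf_zero e1, zero_mul]
  · by_contra hx
    push Not at hx
    apply h
    unfold psi
    have e2 : 2 ≤ x / (3 / 2 * Real.log Y) := by rw [le_div_iff₀ (by positivity)]; linarith
    rw [ηf_one e2, sub_self, mul_zero]

lemma partition (Y J : ℕ) (x : ℝ) :
    (1 - ηf (x / wj Y J)) + ∑ j ∈ Finset.range J, Wn Y j x + psi Y x +
      ηf (x / wj Y 0) * ηf (x / (3 / 2 * Real.log Y)) = 1 := by
  have h1 : ∑ j ∈ Finset.range J, Wn Y j x = ηf (x / wj Y J) - ηf (x / wj Y 0) := by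
    unfold Wn
    exact Finset.sum_range_sub (fun j => ηf (x / wj Y j)) J
  rw [h1]
  unfold psi
  ring

/-! ### the polynomials -/

/-- the polynomial `Gp z a b` -/
noncomputable def Pol (z : ℝ) (a b : ℕ) : Polynomial ℝ :=
  ∑ i ∈ Finset.Ico a b, Polynomial.C (z ^ i / (i.factorial : ℝ)) * Polynomial.X ^ i

lemma Pol_eval (z : ℝ) (a b : ℕ) (x : ℝ) : (Pol z a b).eval x = Gp z a b x := by
  unfold Pol Gp
  rw [Polynomial.eval_finsetSum]
  refine Finset.sum_congr rfl fun i _ => ?_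
  rw [Polynomial.eval_mul, Polynomial.eval_C, Polynomial.eval_pow, Polynomial.eval_X, mul_pow]
  ring

lemma Pol_degree (z : ℝ) (a b : ℕ) : (Pol z a b).degree < b := by
  rw [Polynomial.degree_lt_iff_coeff_zero]
  intro n hn
  unfold Pol
  rw [Polynomial.finsetSum_coeff]
  refine Finset.sum_eq_zero fun i hi => ?_
  rw [Polynomial.coeff_C_mul_X_pow, if_neg]
  rintro rfl
  have := (Finset.mem_Ico.1 hi).2
  omega

lemma pow_add_div (x y : ℝ) (n : ℕ) :
    (x + y) ^ n / (n.factorial : ℝ) =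
      ∑ l ∈ Finset.range (n + 1), x ^ l / (l.factorial : ℝ) * (y ^ (n - l) /
        ((n - l).factorial : ℝ)) := by
  rw [add_pow, Finset.sum_div]
  refine Finset.sum_congr rfl fun l hl => ?_
  have hl' : l ≤ n := by
    have := Finset.mem_range.1 hl; omega
  rw [Nat.cast_choose ℝ hl']
  have h1 : (n.factorial : ℝ) ≠ 0 := by positivity
  have h2 : (l.factorial : ℝ) ≠ 0 := by positivity
  have h3 : ((n - l).factorial : ℝ) ≠ 0 := by positivity
  field_simp

/-- Taylor expansion of the reflected polynomial -/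
lemma Gp_reflect (z c x : ℝ) (a b : ℕ) :
    Gp z a b (2 * c - x) =
      ∑ l ∈ Finset.range b, (2 * c * z) ^ l / (l.factorial : ℝ) * Gp z (a - l) (b - l) (-x) := by
  have h1 : Gp z a b (2 * c - x) = ∑ i ∈ Finset.Ico a b, ∑ l ∈ Finset.range b,
      if l ≤ i then (2 * c * z) ^ l / (l.factorial : ℝ) * ((z * -x) ^ (i - l) /
        ((i - l).factorial : ℝ)) else 0 := by
    unfold Gp
    refine Finset.sum_congr rfl fun i hi => ?_
    have e : z * (2 * c - x) = 2 * c * z + z * -x := by ring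
    rw [e, pow_add_div, ← Finset.sum_filter]
    refine Finset.sum_congr ?_ fun _ _ => rfl
    ext l
    have := (Finset.mem_Ico.1 hi).2
    simp only [Finset.mem_range, Finset.mem_filter]
    omega
  rw [h1, Finset.sum_comm]
  refine Finset.sum_congr rfl fun l _ => ?_
  rw [← Finset.sum_filter, Gp, Finset.mul_sum]
  have e2 : (Finset.Ico a b).filter (fun i => l ≤ i) = Finset.Ico (a - l + l) (b - l + l) := by
    ext i
    simp only [Finset.mem_filter, Finset.mem_Ico]
    omega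
  rw [e2, ← Finset.sum_Ico_add']
  refine Finset.sum_congr rfl fun i _ => ?_
  rw [Nat.add_sub_cancel]

lemma Gp_abs_le {z : ℝ} (hz : 0 ≤ z) (a b : ℕ) (x : ℝ) :
    |Gp z a b x| ≤ (z * |x|) ^ a * Real.exp (z * |x|) := by
  have ht : 0 ≤ z * |x| := by positivity
  have h1 : |Gp z a b x| ≤ ∑ i ∈ Finset.Ico a b, (z * |x|) ^ i / (i.factorial : ℝ) := by
    unfold Gp
    refine (Finset.abs_sum_le_sum_abs _ _).trans (le_of_eq ?_)
    refine Finset.sum_congr rfl fun i _ => ?_
    rw [abs_div, abs_pow, abs_mul, abs_of_nonneg hz, Nat.abs_cast]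
  refine h1.trans ?_
  by_cases hab : a ≤ b
  · obtain ⟨d, rfl⟩ := Nat.exists_eq_add_of_le hab
    rw [Finset.sum_Ico_eq_sum_range, Nat.add_sub_cancel_left]
    have h2 : ∀ i ∈ Finset.range d, (z * |x|) ^ (a + i) / ((a + i).factorial : ℝ) ≤
        (z * |x|) ^ a * ((z * |x|) ^ i / (i.factorial : ℝ)) := by
      intro i _
      rw [pow_add, mul_div_assoc]
      refine mul_le_mul_of_nonneg_left ?_ (by positivity)
      refine div_le_div_of_nonneg_left (by positivity) (by positivity) ?_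
      exact_mod_cast Nat.factorial_le (by omega)
    refine (Finset.sum_le_sum h2).trans ?_
    rw [← Finset.mul_sum]
    refine mul_le_mul_of_nonneg_left ?_ (by positivity)
    exact Real.sum_le_exp_of_nonneg ht d
  · rw [Finset.Ico_eq_empty (by omega), Finset.sum_empty]
    positivity

/-! ### integrability -/

section

variable {m : ℕ} {κ : ℝ}

lemma int_Gp (hc : StCoef) (hm : 0 < m)
    (hfe : ∀ u : ℝ, 0 < u → theta m u = κ / (Qm m * u ^ 2) * theta m (1 / (Qm m * u)))
    {Y : ℕ} (hY : 3 ≤ Y) (z α β : ℝ) (a b : ℕ) :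
    IntegrableOn (fun u => theta m u * Gp z a b (α * Real.log (u * Y) + β)) (Ioi 0) := by
  have hY0 : (Y : ℝ) ≠ 0 := by
    have : (0 : ℝ) < Y := by exact_mod_cast (by omega : 0 < Y)
    exact this.ne'
  have h1 := Vanish.integrable_poly hc hm hfe ((Pol z a b).comp
    (Polynomial.C α * Polynomial.X + Polynomial.C (α * Real.log Y + β)))
  refine h1.congr_fun (fun u hu => ?_) measurableSet_Ioi
  have hu0 : (0 : ℝ) < u := hu
  simp only
  rw [Polynomial.eval_comp, Pol_eval]
  congr 2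
  simp only [Polynomial.eval_add, Polynomial.eval_mul, Polynomial.eval_C, Polynomial.eval_X]
  rw [Real.log_mul hu0.ne' hY0]
  ring

lemma meas_log {W : ℝ → ℝ} (hW : Continuous W) (Y : ℕ) :
    Measurable fun u : ℝ => W (Real.log (u * Y)) :=
  hW.measurable.comp (Real.measurable_log.comp (measurable_id.mul_const _))

lemma int_bdd {f g : ℝ → ℝ} {A : Set ℝ} (hf : IntegrableOn f A) (hg : Measurable g) {b : ℝ}
    (hb : ∀ u, |g u| ≤ b) : IntegrableOn (fun u => f u * g u) A := by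
  have := Integrable.mul_bdd (c := b) hf hg.aestronglyMeasurable
    (Filter.Eventually.of_forall fun u => by rw [Real.norm_eq_abs]; exact hb u)
  exact this

/-- the reflected polynomial window -/
lemma int_refl (hc : StCoef) (hm : 0 < m)
    (hfe : ∀ u : ℝ, 0 < u → theta m u = κ / (Qm m * u ^ 2) * theta m (1 / (Qm m * u)))
    {Y : ℕ} (hY : 3 ≤ Y) (z : ℝ) (a b : ℕ) {W : ℝ → ℝ} (hW : Continuous W)
    (hW1 : ∀ x, |W x| ≤ 1) :
    IntegrableOn (fun u => theta m u * (W (Real.log (u * Y)) *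
      Gp z a b (-Real.log (u * Y)))) (Ioi 0) := by
  have h1 := int_bdd (int_Gp hc hm hfe hY z (-1) 0 a b) (meas_log hW Y) (fun u => hW1 _)
  refine h1.congr_fun (fun u _ => ?_) measurableSet_Ioi
  simp only
  rw [neg_one_mul, add_zero]
  ring

lemma int_refl2 (hc : StCoef) (hm : 0 < m)
    (hfe : ∀ u : ℝ, 0 < u → theta m u = κ / (Qm m * u ^ 2) * theta m (1 / (Qm m * u)))
    {Y : ℕ} (hY : 3 ≤ Y) (z c : ℝ) (a b : ℕ) {W : ℝ → ℝ} (hW : Continuous W)
    (hW1 : ∀ x, |W x| ≤ 1) :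
    IntegrableOn (fun u => theta m u * (W (Real.log (u * Y)) *
      Gp z a b (2 * c - Real.log (u * Y)))) (Ioi 0) := by
  have h1 := int_bdd (int_Gp hc hm hfe hY z (-1) (2 * c) a b) (meas_log hW Y) (fun u => hW1 _)
  refine h1.congr_fun (fun u _ => ?_) measurableSet_Ioi
  simp only
  rw [neg_one_mul, neg_add_eq_sub]
  ring

lemma int_dir (hc : StCoef) (hm : 0 < m)
    (hfe : ∀ u : ℝ, 0 < u → theta m u = κ / (Qm m * u ^ 2) * theta m (1 / (Qm m * u)))
    {Y : ℕ} (hY : 3 ≤ Y) (z : ℝ) (a b : ℕ) {W : ℝ → ℝ} (hW : Continuous W)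
    (hW1 : ∀ x, |W x| ≤ 1) :
    IntegrableOn (fun u => theta m u * (W (Real.log (u * Y)) *
      Gp z a b (Real.log (u * Y)))) (Ioi 0) := by
  have h1 := int_bdd (int_Gp hc hm hfe hY z 1 0 a b) (meas_log hW Y) (fun u => hW1 _)
  refine h1.congr_fun (fun u _ => ?_) measurableSet_Ioi
  simp only
  rw [one_mul, add_zero]
  ring

/-- the functional of a reflected window, expanded -/
lemma Fw_refl (hc : StCoef) (hm : 0 < m)
    (hfe : ∀ u : ℝ, 0 < u → theta m u = κ / (Qm m * u ^ 2) * theta m (1 / (Qm m * u)))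
    {Y : ℕ} (hY : 3 ≤ Y) (z c : ℝ) (a b : ℕ) {W : ℝ → ℝ} (hW : Continuous W)
    (hW1 : ∀ x, |W x| ≤ 1) :
    Fw Y (fun x => W x * Gp z a b (2 * c - x)) m =
      ∑ l ∈ Finset.range b, (2 * c * z) ^ l / (l.factorial : ℝ) *
        Fw Y (fun x => W x * Gp z (a - l) (b - l) (-x)) m := by
  unfold Fw Fn cfY
  simp_rw [← integral_const_mul]
  rw [← integral_finsetSum]
  · refine setIntegral_congr_fun measurableSet_Ioi fun u _ => ?_
    rw [Gp_reflect, Finset.mul_sum, Finset.mul_sum]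
    refine Finset.sum_congr rfl fun l _ => ?_
    ring
  · intro l _
    exact (int_refl hc hm hfe hY z _ _ hW hW1).const_mul _

end

end Asm
end P004
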