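import Vale.Agent.P004.H503.AsmA

/-!
# P004, assembly, part B: the identity for one `m`
-/

open Real MeasureTheory Set
open scoped ENNReal

namespace P004
namespace Asm

/-- the inner part of the folded integral -/
noncomputable def Tin (Y J m : ℕ) (z κ : ℝ) (a b : ℕ) : ℝ :=
  ∫ u in Ioi (1 / √(Qm m)), theta m u * (Gp z a b (Real.log (u * Y)) +
    κ * Gp z a b (2 * Real.log (Y / √(Qm m)) - Real.log (u * Y))) *
      (1 - ηf (Real.log (u * Y) / wj Y J))

/-- the part of the folded integral near infinity -/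
noncomputable def Tout (Y m : ℕ) (z κ : ℝ) (a b : ℕ) : ℝ :=
  ∫ u in Ioi (1 / √(Qm m)), theta m u * (Gp z a b (Real.log (u * Y)) +
    κ * Gp z a b (2 * Real.log (Y / √(Qm m)) - Real.log (u * Y))) *
      (ηf (Real.log (u * Y) / wj Y 0) * ηf (Real.log (u * Y) / (3 / 2 * Real.log Y)))

section

variable {m : ℕ} {κ κ' : ℝ}

lemma sqrtQ_gt {Y : ℕ} (hY : 3 ≤ Y) (hm2 : Y < 2 * m) : (Y : ℝ) < √(Qm m) := by
  apply Real.lt_sqrt_of_sq_lt
  have h1 : (Y : ℝ) < 2 * m := by exact_mod_cast hm2
  have h0 : (0 : ℝ) < Y := by exact_mod_cast (by omega : 0 < Y)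
  unfold Qm
  split_ifs <;> nlinarith

/-- a window supported in `x > 0` does not see the fold -/
lemma window_full {Y : ℕ} (hY : 3 ≤ Y) (hm2 : Y < 2 * m) {W : ℝ → ℝ}
    (hW : ∀ x, W x ≠ 0 → 0 < x) (f : ℝ → ℝ) :
    ∫ u in Ioi (1 / √(Qm m)), f u * W (Real.log (u * Y)) =
      ∫ u in Ioi (0 : ℝ), f u * W (Real.log (u * Y)) := by
  have hQ := sqrtQ_gt hY hm2
  have h0 : (0 : ℝ) < Y := by exact_mod_cast (by omega : 0 < Y)
  have hQ0 : 0 < √(Qm m) := h0.trans hQ
  have h1 : Ioi (0 : ℝ) = Ioc 0 (1 / √(Qm m)) ∪ Ioi (1 / √(Qm m)) :=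
    (Ioc_union_Ioi_eq_Ioi (by positivity)).symm
  have hz : ∀ u ∈ Ioc 0 (1 / √(Qm m)), f u * W (Real.log (u * Y)) = 0 := by
    intro u hu
    have h2 : Real.log (u * Y) ≤ 0 := by
      apply Real.log_nonpos (by have := hu.1; positivity)
      calc u * Y ≤ 1 / √(Qm m) * √(Qm m) := by
            have := hu.2
            have h3 := hu.1
            gcongr
        _ = 1 := by field_simp
    have h3 : W (Real.log (u * Y)) = 0 := by
      by_contra hne
      linarith [hW _ hne]
    rw [h3, mul_zero]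
  symm
  refine setIntegral_eq_of_subset_of_forall_sdiff_eq_zero measurableSet_Ioi
    (Ioi_subset_Ioi (by positivity)) ?_
  intro u hu
  apply hz
  exact ⟨hu.1, not_lt.1 hu.2⟩

/-- one window of the folded integral -/
lemma window_eq (hc : StCoef) (hm : 0 < m)
    (hfe : ∀ u : ℝ, 0 < u → theta m u = κ' / (Qm m * u ^ 2) * theta m (1 / (Qm m * u)))
    {Y : ℕ} (hY : 3 ≤ Y) (hm2 : Y < 2 * m) (z : ℝ) (a b : ℕ) {W : ℝ → ℝ} (hWc : Continuous W)
    (hW1 : ∀ x, |W x| ≤ 1) (hW : ∀ x, W x ≠ 0 → 0 < x) :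
    ∫ u in Ioi (1 / √(Qm m)), theta m u * (Gp z a b (Real.log (u * Y)) +
      κ * Gp z a b (2 * Real.log (Y / √(Qm m)) - Real.log (u * Y))) * W (Real.log (u * Y)) =
    Fw Y (fun x => W x * Gp z a b x) m +
      κ * ∑ l ∈ Finset.range b, (2 * Real.log (Y / √(Qm m)) * z) ^ l / (l.factorial : ℝ) *
        Fw Y (fun x => W x * Gp z (a - l) (b - l) (-x)) m := by
  rw [window_full hY hm2 hW, ← Fw_refl hc hm hfe hY z _ a b hWc hW1]
  unfold Fw Fn cfY
  rw [← integral_const_mul, ← integral_add]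
  · refine setIntegral_congr_fun measurableSet_Ioi fun u _ => ?_
    simp only
    ring
  · exact int_dir hc hm hfe hY z a b hWc hW1
  · exact (int_refl2 hc hm hfe hY z _ a b hWc hW1).const_mul κ

/-- the partition of the folded integral -/
lemma folded_split (hc : StCoef) (hm : 0 < m)
    (hfe : ∀ u : ℝ, 0 < u → theta m u = κ' / (Qm m * u ^ 2) * theta m (1 / (Qm m * u)))
    {Y : ℕ} (hY : 3 ≤ Y) (hm2 : Y < 2 * m) (z : ℝ) (a b J : ℕ) :
    ∫ u in Ioi (1 / √(Qm m)), theta m u * (Gp z a b (Real.log (u * Y)) +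
      κ * Gp z a b (2 * Real.log (Y / √(Qm m)) - Real.log (u * Y))) =
    Tin Y J m z κ a b + ∑ j ∈ Finset.range J,
      (Fw Y (fun x => Wn Y j x * Gp z a b x) m +
        κ * ∑ l ∈ Finset.range b, (2 * Real.log (Y / √(Qm m)) * z) ^ l / (l.factorial : ℝ) *
          Fw Y (fun x => Wn Y j x * Gp z (a - l) (b - l) (-x)) m) +
      (Fw Y (fun x => psi Y x * Gp z a b x) m +
        κ * ∑ l ∈ Finset.range b, (2 * Real.log (Y / √(Qm m)) * z) ^ l / (l.factorial : ℝ) *
          Fw Y (fun x => psi Y x * Gp z (a - l) (b - l) (-x)) m) +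
      Tout Y m z κ a b := by
  have hQ := sqrtQ_gt hY hm2
  have h0 : (0 : ℝ) < Y := by exact_mod_cast (by omega : 0 < Y)
  have hQ0 : 0 < √(Qm m) := h0.trans hQ
  set F : ℝ → ℝ := fun u => theta m u * (Gp z a b (Real.log (u * Y)) +
      κ * Gp z a b (2 * Real.log (Y / √(Qm m)) - Real.log (u * Y))) with hF
  have hFi : IntegrableOn F (Ioi (1 / √(Qm m))) := by
    have h1 := int_Gp hc hm hfe hY z 1 0 a b
    have h2 := (int_Gp hc hm hfe hY z (-1) (2 * Real.log (Y / √(Qm m))) a b).const_mul κ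
    have h3 : IntegrableOn F (Ioi 0) := by
      refine IntegrableOn.congr_fun (Integrable.add h1 h2) (fun u _ => ?_) measurableSet_Ioi
      simp only [hF, Pi.add_apply]
      rw [one_mul, add_zero, neg_one_mul, neg_add_eq_sub]
      ring
    exact h3.mono_set (Ioi_subset_Ioi (by positivity))
  have hin : IntegrableOn (fun u => F u * (1 - ηf (Real.log (u * Y) / wj Y J)))
      (Ioi (1 / √(Qm m))) := by
    refine int_bdd (b := 1) hFi ?_ ?_
    · exact meas_log (W := fun x => 1 - ηf (x / wj Y J))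
        (continuous_const.sub (ηf_cont.comp (continuous_id.div_const _))) Y
    · intro u
      have h1 := ηf_nonneg (Real.log (u * Y) / wj Y J)
      have h2 := ηf_le_one (Real.log (u * Y) / wj Y J)
      rw [abs_of_nonneg (by linarith)]
      linarith
  have hj : ∀ j, IntegrableOn (fun u => F u * Wn Y j (Real.log (u * Y))) (Ioi (1 / √(Qm m))) :=
    fun j => int_bdd hFi (meas_log (Wn_cont Y j) Y) (fun u => Wn_abs_le Y j _)
  have hpsi : IntegrableOn (fun u => F u * psi Y (Real.log (u * Y))) (Ioi (1 / √(Qm m))) :=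
    int_bdd hFi (meas_log (psi_cont Y) Y) (fun u => psi_abs_le Y _)
  have hout : IntegrableOn (fun u => F u * (ηf (Real.log (u * Y) / wj Y 0) *
      ηf (Real.log (u * Y) / (3 / 2 * Real.log Y)))) (Ioi (1 / √(Qm m))) := by
    refine int_bdd (b := 1) hFi ?_ ?_
    · exact meas_log (W := fun x => ηf (x / wj Y 0) * ηf (x / (3 / 2 * Real.log Y)))
        ((ηf_cont.comp (continuous_id.div_const _)).mul
          (ηf_cont.comp (continuous_id.div_const _))) Y
    · intro u
      have h1 := ηf_nonneg (Real.log (u * Y) / wj Y 0)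
      have h2 := ηf_le_one (Real.log (u * Y) / wj Y 0)
      have h3 := ηf_nonneg (Real.log (u * Y) / (3 / 2 * Real.log Y))
      have h4 := ηf_le_one (Real.log (u * Y) / (3 / 2 * Real.log Y))
      rw [abs_of_nonneg (by positivity)]
      calc _ ≤ (1 : ℝ) * 1 := mul_le_mul h2 h4 h3 zero_le_one
        _ = 1 := one_mul 1
  have e1 : ∫ u in Ioi (1 / √(Qm m)), F u = ∫ u in Ioi (1 / √(Qm m)),
      (F u * (1 - ηf (Real.log (u * Y) / wj Y J)) +
        ∑ j ∈ Finset.range J, F u * Wn Y j (Real.log (u * Y)) +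
        F u * psi Y (Real.log (u * Y)) +
        F u * (ηf (Real.log (u * Y) / wj Y 0) *
          ηf (Real.log (u * Y) / (3 / 2 * Real.log Y)))) := by
    refine setIntegral_congr_fun measurableSet_Ioi fun u _ => ?_
    have := partition Y J (Real.log (u * Y))
    rw [← Finset.mul_sum, ← mul_add, ← mul_add, ← mul_add, this, mul_one]
  have hsum : IntegrableOn (fun u => ∑ j ∈ Finset.range J, F u * Wn Y j (Real.log (u * Y)))
      (Ioi (1 / √(Qm m))) := integrable_finsetSum _ fun j _ => hj j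
  have i12 : IntegrableOn (fun u => F u * (1 - ηf (Real.log (u * Y) / wj Y J)) +
      ∑ j ∈ Finset.range J, F u * Wn Y j (Real.log (u * Y))) (Ioi (1 / √(Qm m))) := hin.add hsum
  have i123 : IntegrableOn (fun u => F u * (1 - ηf (Real.log (u * Y) / wj Y J)) +
      ∑ j ∈ Finset.range J, F u * Wn Y j (Real.log (u * Y)) +
      F u * psi Y (Real.log (u * Y))) (Ioi (1 / √(Qm m))) := i12.add hpsi
  rw [e1, integral_add i123 hout, integral_add i12 hpsi, integral_add hin hsum,
    integral_finsetSum _ fun j _ => hj j]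
  have hwn : ∀ j ∈ Finset.range J, ∫ u in Ioi (1 / √(Qm m)), F u * Wn Y j (Real.log (u * Y)) =
      Fw Y (fun x => Wn Y j x * Gp z a b x) m +
        κ * ∑ l ∈ Finset.range b, (2 * Real.log (Y / √(Qm m)) * z) ^ l / (l.factorial : ℝ) *
          Fw Y (fun x => Wn Y j x * Gp z (a - l) (b - l) (-x)) m := by
    intro j _
    exact window_eq hc hm hfe hY hm2 z a b (Wn_cont Y j) (Wn_abs_le Y j)
      (fun x hx => lt_of_lt_of_le (wj_pos hY _) (Wn_supp hY j hx).1)
  have hps : ∫ u in Ioi (1 / √(Qm m)), F u * psi Y (Real.log (u * Y)) =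
      Fw Y (fun x => psi Y x * Gp z a b x) m +
        κ * ∑ l ∈ Finset.range b, (2 * Real.log (Y / √(Qm m)) * z) ^ l / (l.factorial : ℝ) *
          Fw Y (fun x => psi Y x * Gp z (a - l) (b - l) (-x)) m :=
    window_eq hc hm hfe hY hm2 z a b (psi_cont Y) (psi_abs_le Y)
      (fun x hx => lt_of_lt_of_le (wj_pos hY _) (psi_supp hY hx).1)
  rw [Finset.sum_congr rfl hwn, hps]
  rfl

/-- splitting off the exponential in the outer window -/
lemma psi_split (hc : StCoef) (hm : 0 < m)
    (hfe : ∀ u : ℝ, 0 < u → theta m u = κ' / (Qm m * u ^ 2) * theta m (1 / (Qm m * u)))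
    {Y : ℕ} (hY : 3 ≤ Y) {z : ℝ} (hz : 0 ≤ z) (a b : ℕ) :
    Fw Y (fun x => psi Y x * Gp z a b x) m =
      Fw Y (fun x => psi Y x * Real.exp (z * x)) m +
      Fw Y (fun x => psi Y x * (Gp z a b x - Real.exp (z * x))) m := by
  have h0 : (1 : ℝ) < Y := by exact_mod_cast (by omega : 1 < Y)
  have hL := Real.log_pos h0
  have i1 := int_dir hc hm hfe hY z a b (psi_cont Y) (psi_abs_le Y)
  have i0 : IntegrableOn (fun u => theta m u) (Ioi 0) := by
    have := Vanish.integrable_log hc hm hfe 0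
    simpa using this
  have i2 : IntegrableOn (fun u => theta m u * (psi Y (Real.log (u * Y)) *
      Real.exp (z * Real.log (u * Y)))) (Ioi 0) := by
    refine int_bdd (b := Real.exp (z * (3 * Real.log Y))) i0 ?_ ?_
    · exact meas_log (W := fun x => psi Y x * Real.exp (z * x))
        ((psi_cont Y).mul (Real.continuous_exp.comp (continuous_const.mul continuous_id))) Y
    · intro u
      by_cases hp : psi Y (Real.log (u * Y)) = 0
      · rw [hp, zero_mul, abs_zero]
        positivity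
      · have h3 := (psi_supp hY hp).2
        rw [abs_mul, Real.abs_exp]
        calc _ ≤ 1 * Real.exp (z * (3 * Real.log Y)) := by
              refine mul_le_mul (psi_abs_le Y _) ?_ (Real.exp_pos _).le zero_le_one
              rw [Real.exp_le_exp]
              exact mul_le_mul_of_nonneg_left h3 hz
          _ = _ := one_mul _
  unfold Fw Fn cfY
  rw [← integral_add i2]
  · refine setIntegral_congr_fun measurableSet_Ioi fun u _ => ?_
    simp only
    ring
  · refine IntegrableOn.congr_fun (i1.sub i2) (fun u _ => ?_) measurableSet_Ioi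
    simp only [Pi.sub_apply]
    ring

end

end Asm
end P004
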