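import Vale.Agent.P004.H503.AsmC

/-!
# P004, assembly, part D: the pointwise inequality and its sum over `m`
-/

open Real MeasureTheory Set
open scoped ENNReal

namespace P004
namespace Asm

/-- the `ℓ²` norm over the block -/
noncomputable def nY (Y : ℕ) (f : ℕ → ℝ) : ℝ := √(∑ m ∈ sqf Y, f m ^ 2)

lemma nY_nonneg (Y : ℕ) (f : ℕ → ℝ) : 0 ≤ nY Y f := Real.sqrt_nonneg _

lemma nY_le {Y : ℕ} {f : ℕ → ℝ} {B : ℝ} (h : ∑ m ∈ sqf Y, f m ^ 2 ≤ B) : nY Y f ≤ √B :=
  Real.sqrt_le_sqrt h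

lemma sum_le_nY {Y : ℕ} {S : Finset ℕ} (hS : S ⊆ sqf Y) (f : ℕ → ℝ) :
    ∑ m ∈ S, |f m| ≤ √(S.card : ℝ) * nY Y f := by
  have h1 := Real.sum_mul_le_sqrt_mul_sqrt S (fun _ => (1 : ℝ)) (fun m => |f m|)
  simp only [one_mul, one_pow, Finset.sum_const, nsmul_eq_mul, mul_one, sq_abs] at h1
  refine h1.trans (mul_le_mul_of_nonneg_left ?_ (Real.sqrt_nonneg _))
  exact Real.sqrt_le_sqrt (Finset.sum_le_sum_of_subset_of_nonneg hS fun _ _ _ => sq_nonneg _)

lemma sum_mul_le_nY {Y : ℕ} {S : Finset ℕ} (hS : S ⊆ sqf Y) (f g : ℕ → ℝ) :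
    ∑ m ∈ S, |f m| * |g m| ≤ nY Y f * nY Y g := by
  have h1 := Real.sum_mul_le_sqrt_mul_sqrt S (fun m => |f m|) (fun m => |g m|)
  simp only [sq_abs] at h1
  refine h1.trans (mul_le_mul ?_ ?_ (Real.sqrt_nonneg _) (nY_nonneg _ _))
  · exact Real.sqrt_le_sqrt (Finset.sum_le_sum_of_subset_of_nonneg hS fun _ _ _ => sq_nonneg _)
  · exact Real.sqrt_le_sqrt (Finset.sum_le_sum_of_subset_of_nonneg hS fun _ _ _ => sq_nonneg _)

/-- the weights of the Taylor expansion -/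
noncomputable def wl (z : ℝ) (l : ℕ) : ℝ := (2.2 * z) ^ l / (l.factorial : ℝ)

lemma wl_nonneg {z : ℝ} (hz : 0 ≤ z) (l : ℕ) : 0 ≤ wl z l := by unfold wl; positivity

lemma coef_le {z c : ℝ} (hz : 0 ≤ z) (hc1 : -1.1 ≤ c) (hc2 : c ≤ 0) (l : ℕ) :
    |(2 * c * z) ^ l / (l.factorial : ℝ)| ≤ wl z l := by
  unfold wl
  rw [abs_div, Nat.abs_cast, abs_pow]
  refine div_le_div_of_nonneg_right ?_ (by positivity)
  refine pow_le_pow_left₀ (abs_nonneg _) ?_ l
  rw [abs_mul, abs_mul, abs_of_nonneg hz, abs_of_nonpos hc2]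
  refine mul_le_mul_of_nonneg_right ?_ hz
  rw [abs_of_pos (by norm_num : (0 : ℝ) < 2)]
  linarith

section

variable {m : ℕ} {κ κ' : ℝ}

/-- the pointwise inequality -/
lemma pointwise (hc : StCoef) (hm : 0 < m) (hκ : κ = 1 ∨ κ = -1)
    (hfe : ∀ u : ℝ, 0 < u → theta m u = κ' / (Qm m * u ^ 2) * theta m (1 / (Qm m * u)))
    {Y : ℕ} (hY : 3 ≤ Y) (hmY : m ≤ Y) (hm2 : Y < 2 * m) {z : ℝ} (hz : 0 ≤ z) (a b J : ℕ)
    (hid : ∫ u in Ioi (1 / √(Qm m)), theta m u * (Gp z a b (Real.log (u * Y)) +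
      κ * Gp z a b (2 * Real.log (Y / √(Qm m)) - Real.log (u * Y))) = 0)
    {M Mr : ℕ → ℕ → ℝ} (hM : ∀ j < J, M 0 m = M (j + 1) m * Mr (j + 1) m) (c : ℝ) :
    c ≤ |M 0 m * Fw Y (fun x => psi Y x * Real.exp (z * x)) m - c| +
      |M 0 m * Fw Y (fun x => psi Y x * (Gp z a b x - Real.exp (z * x))) m| +
      ∑ l ∈ Finset.range b, wl z l *
        |M 0 m * Fw Y (fun x => psi Y x * Gp z (a - l) (b - l) (-x)) m| +
      ∑ j ∈ Finset.range J,
        (|M (j + 1) m * Fw Y (fun x => Wn Y j x * Gp z a b x) m| * |Mr (j + 1) m| +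
        ∑ l ∈ Finset.range b, wl z l *
          (|M (j + 1) m * Fw Y (fun x => Wn Y j x * Gp z (a - l) (b - l) (-x)) m| *
            |Mr (j + 1) m|)) +
      |M 0 m| * |Tin Y J m z κ a b| + |M 0 m| * |Tout Y m z κ a b| := by
  obtain ⟨hc1, hc2⟩ := centre (m := m) hY hmY hm2
  rw [folded_split hc hm hfe hY hm2 z a b J, psi_split hc hm hfe hY hz a b] at hid
  set t := M 0 m with ht
  set Fe := Fw Y (fun x => psi Y x * Real.exp (z * x)) m
  set Fp := Fw Y (fun x => psi Y x * (Gp z a b x - Real.exp (z * x))) m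
  set Bp : ℕ → ℝ := fun l => Fw Y (fun x => psi Y x * Gp z (a - l) (b - l) (-x)) m with hBp
  set Aj : ℕ → ℝ := fun j => Fw Y (fun x => Wn Y j x * Gp z a b x) m with hAj
  set Bj : ℕ → ℕ → ℝ := fun j l => Fw Y (fun x => Wn Y j x * Gp z (a - l) (b - l) (-x)) m with hBj
  set co : ℕ → ℝ := fun l => (2 * Real.log (Y / √(Qm m)) * z) ^ l / (l.factorial : ℝ) with hco
  set Ti := Tin Y J m z κ a b
  set To := Tout Y m z κ a b
  have hid' : Ti + ∑ j ∈ Finset.range J, (Aj j + κ * ∑ l ∈ Finset.range b, co l * Bj j l) +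
      (Fe + Fp + κ * ∑ l ∈ Finset.range b, co l * Bp l) + To = 0 := hid
  have hk : |κ| = 1 := by rcases hκ with h | h <;> rw [h] <;> simp
  have hcol : ∀ l, |co l| ≤ wl z l := fun l => coef_le hz hc1 hc2 l
  have hB : ∀ (s : ℝ) (G : ℕ → ℝ), |s * (κ * ∑ l ∈ Finset.range b, co l * G l)| ≤
      ∑ l ∈ Finset.range b, wl z l * |s * G l| := by
    intro s G
    rw [abs_mul, abs_mul, hk, one_mul, ← abs_mul, Finset.mul_sum]
    refine (Finset.abs_sum_le_sum_abs _ _).trans (Finset.sum_le_sum fun l _ => ?_)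
    have e : s * (co l * G l) = co l * (s * G l) := by ring
    rw [e, abs_mul]
    exact mul_le_mul_of_nonneg_right (hcol l) (abs_nonneg _)
  have e1 : c = -(t * Fe - c) - t * Fp - t * (κ * ∑ l ∈ Finset.range b, co l * Bp l) -
      ∑ j ∈ Finset.range J, t * (Aj j + κ * ∑ l ∈ Finset.range b, co l * Bj j l) -
      t * Ti - t * To := by
    rw [← Finset.mul_sum]
    linear_combination t * hid'
  have h1 : c ≤ |t * Fe - c| + |t * Fp| + |t * (κ * ∑ l ∈ Finset.range b, co l * Bp l)| +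
      ∑ j ∈ Finset.range J, |t * (Aj j + κ * ∑ l ∈ Finset.range b, co l * Bj j l)| +
      |t * Ti| + |t * To| := by
    have a1 := neg_le_abs (t * Fe - c)
    have a2 := neg_le_abs (t * Fp)
    have a3 := neg_le_abs (t * (κ * ∑ l ∈ Finset.range b, co l * Bp l))
    have a4 : -∑ j ∈ Finset.range J, t * (Aj j + κ * ∑ l ∈ Finset.range b, co l * Bj j l) ≤
        ∑ j ∈ Finset.range J, |t * (Aj j + κ * ∑ l ∈ Finset.range b, co l * Bj j l)| :=
      (neg_le_abs _).trans (Finset.abs_sum_le_sum_abs _ _)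
    have a5 := neg_le_abs (t * Ti)
    have a6 := neg_le_abs (t * To)
    linarith [e1.le]
  refine h1.trans ?_
  have h2 : |t * (κ * ∑ l ∈ Finset.range b, co l * Bp l)| ≤
      ∑ l ∈ Finset.range b, wl z l * |t * Bp l| := hB t Bp
  have h3 : ∀ j ∈ Finset.range J, |t * (Aj j + κ * ∑ l ∈ Finset.range b, co l * Bj j l)| ≤
      |M (j + 1) m * Aj j| * |Mr (j + 1) m| + ∑ l ∈ Finset.range b, wl z l *
        (|M (j + 1) m * Bj j l| * |Mr (j + 1) m|) := by
    intro j hj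
    have hMj := hM j (Finset.mem_range.1 hj)
    rw [mul_add]
    refine (abs_add_le _ _).trans (add_le_add ?_ ?_)
    · rw [hMj, ← abs_mul]
      apply le_of_eq
      congr 1
      ring
    · refine (hB t (Bj j)).trans (le_of_eq ?_)
      refine Finset.sum_congr rfl fun l _ => ?_
      rw [hMj, ← abs_mul]
      congr 2
      ring
  have h4 := Finset.sum_le_sum h3
  rw [abs_mul t Ti, abs_mul t To]
  linarith

end

/-- the summed inequality -/
lemma summed (hc : StCoef) (hFE : StFE) {Y : ℕ} (hY : 3 ≤ Y) {z : ℝ} (hz : 0 ≤ z)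
    (hz2 : z ≤ 1 / 2) (a b J : ℕ) {S : Finset ℕ} (hS : S ⊆ sqf Y)
    (hS2 : ∀ m ∈ S, Y < 2 * m)
    (hid : ∀ m ∈ S, ∃ κ : ℝ, (κ = 1 ∨ κ = -1) ∧
      ∫ u in Ioi (1 / √(Qm m)), theta m u * (Gp z a b (Real.log (u * Y)) +
      κ * Gp z a b (2 * Real.log (Y / √(Qm m)) - Real.log (u * Y))) = 0)
    {M Mr : ℕ → ℕ → ℝ} (hM : ∀ m, ∀ j < J, M 0 m = M (j + 1) m * Mr (j + 1) m) (c : ℝ) :
    (S.card : ℝ) * c ≤ √(S.card : ℝ) *
      (nY Y (fun m => M 0 m * Fw Y (fun x => psi Y x * Real.exp (z * x)) m - c) +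
      nY Y (fun m => M 0 m * Fw Y (fun x => psi Y x * (Gp z a b x - Real.exp (z * x))) m) +
      ∑ l ∈ Finset.range b, wl z l *
        nY Y (fun m => M 0 m * Fw Y (fun x => psi Y x * Gp z (a - l) (b - l) (-x)) m)) +
      ∑ j ∈ Finset.range J,
        (nY Y (fun m => M (j + 1) m * Fw Y (fun x => Wn Y j x * Gp z a b x) m) *
          nY Y (Mr (j + 1)) +
        ∑ l ∈ Finset.range b, wl z l *
          (nY Y (fun m => M (j + 1) m *
            Fw Y (fun x => Wn Y j x * Gp z (a - l) (b - l) (-x)) m) * nY Y (Mr (j + 1)))) +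
      nY Y (M 0) * (2 * ((z * (2 * wj Y J + 3)) ^ a * Real.exp (z * (2 * wj Y J + 3))) *
        √((∑ m ∈ sqf Y, (Jm m).toReal) * (2 * wj Y J + 3))) +
      nY Y (M 0) * (2 * K1.C0 * (a.factorial : ℝ) * Real.exp 3 * (Y * Real.exp (-√(Y : ℝ))) *
        √(Y : ℝ)) := by
  set T1 := 2 * ((z * (2 * wj Y J + 3)) ^ a * Real.exp (z * (2 * wj Y J + 3))) with hT1
  set T2 := 2 * K1.C0 * (a.factorial : ℝ) * Real.exp 3 * (Y * Real.exp (-√(Y : ℝ))) with hT2
  have hw := wj_pos hY J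
  have hT10 : 0 ≤ T1 := by positivity
  have hT20 : 0 ≤ T2 := by
    have := K1.C0_nonneg
    positivity
  have key : ∀ m ∈ S, c ≤ |M 0 m * Fw Y (fun x => psi Y x * Real.exp (z * x)) m - c| +
      |M 0 m * Fw Y (fun x => psi Y x * (Gp z a b x - Real.exp (z * x))) m| +
      ∑ l ∈ Finset.range b, wl z l *
        |M 0 m * Fw Y (fun x => psi Y x * Gp z (a - l) (b - l) (-x)) m| +
      ∑ j ∈ Finset.range J,
        (|M (j + 1) m * Fw Y (fun x => Wn Y j x * Gp z a b x) m| * |Mr (j + 1) m| +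
        ∑ l ∈ Finset.range b, wl z l *
          (|M (j + 1) m * Fw Y (fun x => Wn Y j x * Gp z (a - l) (b - l) (-x)) m| *
            |Mr (j + 1) m|)) +
      |M 0 m| * |T1 * √((Jm m).toReal * (2 * wj Y J + 3))| + |M 0 m| * |T2| := by
    intro m hm
    obtain ⟨κ, hκ, hi⟩ := hid m hm
    have hms := hS hm
    unfold sqf at hms
    rw [Finset.mem_filter, Finset.mem_Icc] at hms
    obtain ⟨⟨hm1, hmY⟩, hsq⟩ := hms
    obtain ⟨κ', hκ', hfe⟩ := hFE m hsq
    have h1 := pointwise hc (by omega) hκ hfe hY hmY (hS2 m hm) hz a b J hi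
      (fun j hj => hM m j hj) c
    refine h1.trans ?_
    have h2 := Tin_le hc (by omega) hκ hκ' hfe hY hmY (hS2 m hm) hz a b J
    have h3 := Tout_le hc (m := m) hκ hY hmY (hS2 m hm) hz hz2 a b
    have h4 : |T1 * √((Jm m).toReal * (2 * wj Y J + 3))| =
        T1 * √((Jm m).toReal * (2 * wj Y J + 3)) := abs_of_nonneg (by positivity)
    rw [h4, abs_of_nonneg hT20]
    have h5 := abs_nonneg (M 0 m)
    have h6 := mul_le_mul_of_nonneg_left h2 h5
    have h7 := mul_le_mul_of_nonneg_left h3 h5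
    linarith
  have h1 := Finset.sum_le_sum key
  rw [Finset.sum_const, nsmul_eq_mul] at h1
  refine h1.trans ?_
  simp only [Finset.sum_add_distrib]
  have b1 := sum_le_nY hS (fun m => M 0 m * Fw Y (fun x => psi Y x * Real.exp (z * x)) m - c)
  have b2 := sum_le_nY hS
    (fun m => M 0 m * Fw Y (fun x => psi Y x * (Gp z a b x - Real.exp (z * x))) m)
  have b3 : ∑ m ∈ S, ∑ l ∈ Finset.range b, wl z l *
        |M 0 m * Fw Y (fun x => psi Y x * Gp z (a - l) (b - l) (-x)) m| ≤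
      √(S.card : ℝ) * ∑ l ∈ Finset.range b, wl z l *
        nY Y (fun m => M 0 m * Fw Y (fun x => psi Y x * Gp z (a - l) (b - l) (-x)) m) := by
    rw [Finset.sum_comm, Finset.mul_sum]
    refine Finset.sum_le_sum fun l _ => ?_
    rw [← Finset.mul_sum]
    have := sum_le_nY hS
      (fun m => M 0 m * Fw Y (fun x => psi Y x * Gp z (a - l) (b - l) (-x)) m)
    calc _ ≤ wl z l * (√(S.card : ℝ) * nY Y
          (fun m => M 0 m * Fw Y (fun x => psi Y x * Gp z (a - l) (b - l) (-x)) m)) :=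
          mul_le_mul_of_nonneg_left this (wl_nonneg hz l)
      _ = _ := by ring
  have b4 : ∑ m ∈ S, ∑ j ∈ Finset.range J,
      |M (j + 1) m * Fw Y (fun x => Wn Y j x * Gp z a b x) m| * |Mr (j + 1) m| ≤
      ∑ j ∈ Finset.range J,
        nY Y (fun m => M (j + 1) m * Fw Y (fun x => Wn Y j x * Gp z a b x) m) *
          nY Y (Mr (j + 1)) := by
    rw [Finset.sum_comm]
    refine Finset.sum_le_sum fun j _ => ?_
    exact sum_mul_le_nY hS _ _
  have b5 : ∑ m ∈ S, ∑ j ∈ Finset.range J, ∑ l ∈ Finset.range b, wl z l *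
          (|M (j + 1) m * Fw Y (fun x => Wn Y j x * Gp z (a - l) (b - l) (-x)) m| *
            |Mr (j + 1) m|) ≤
      ∑ j ∈ Finset.range J, ∑ l ∈ Finset.range b, wl z l *
          (nY Y (fun m => M (j + 1) m *
            Fw Y (fun x => Wn Y j x * Gp z (a - l) (b - l) (-x)) m) * nY Y (Mr (j + 1))) := by
    rw [Finset.sum_comm]
    refine Finset.sum_le_sum fun j _ => ?_
    rw [Finset.sum_comm]
    refine Finset.sum_le_sum fun l _ => ?_
    rw [← Finset.mul_sum]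
    exact mul_le_mul_of_nonneg_left (sum_mul_le_nY hS _ _) (wl_nonneg hz l)
  have b6 := sum_mul_le_nY hS (M 0) (fun m => T1 * √((Jm m).toReal * (2 * wj Y J + 3)))
  have b6' : nY Y (fun m => T1 * √((Jm m).toReal * (2 * wj Y J + 3))) ≤
      T1 * √((∑ m ∈ sqf Y, (Jm m).toReal) * (2 * wj Y J + 3)) := by
    unfold nY
    apply Real.sqrt_le_iff.2
    refine ⟨by positivity, ?_⟩
    rw [mul_pow, Real.sq_sqrt (by positivity), Finset.sum_mul, Finset.mul_sum]
    apply le_of_eq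
    refine Finset.sum_congr rfl fun m _ => ?_
    rw [mul_pow, Real.sq_sqrt (by positivity)]
  have b7 := sum_mul_le_nY hS (M 0) (fun _ => T2)
  have b7' : nY Y (fun _ => T2) ≤ T2 * √(Y : ℝ) := by
    unfold nY
    apply Real.sqrt_le_iff.2
    refine ⟨by positivity, ?_⟩
    rw [mul_pow, Real.sq_sqrt (by positivity), Finset.sum_const, nsmul_eq_mul, mul_comm]
    refine mul_le_mul_of_nonneg_left ?_ (by positivity)
    have h : (sqf Y).card ≤ Y := by
      unfold sqf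
      refine (Finset.card_filter_le _ _).trans ?_
      simp
    exact_mod_cast h
  have hn := nY_nonneg Y (M 0)
  have b6'' := mul_le_mul_of_nonneg_left b6' hn
  have b7'' := mul_le_mul_of_nonneg_left b7' hn
  linarith

end Asm
end P004
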