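import Vale.Agent.P004.H503.AsmD

/-!
# P004, assembly, part E: elementary inequalities
-/

open Real MeasureTheory Set
open scoped ENNReal

namespace P004
namespace Asm

lemma poly_exp (D : ℕ) : ∃ C : ℝ, 1 ≤ C ∧ ∀ K : ℝ, 0 ≤ K →
    (1 + 3 * K) ^ D ≤ C * Real.exp (K / 4) := by
  refine ⟨12 ^ D * D.factorial * Real.exp (1 / 12), ?_, fun K hK => ?_⟩
  · have h1 : (1 : ℝ) ≤ 12 ^ D := one_le_pow₀ (by norm_num)
    have h2 : (1 : ℝ) ≤ D.factorial := by exact_mod_cast Nat.factorial_pos D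
    have h3 : (1 : ℝ) ≤ Real.exp (1 / 12) := Real.one_le_exp (by norm_num)
    calc (1 : ℝ) = 1 * 1 * 1 := by norm_num
      _ ≤ _ := by gcongr
  · have h := Real.pow_div_factorial_le_exp ((1 + 3 * K) / 12) (by positivity) D
    rw [div_le_iff₀ (by positivity), div_pow, div_le_iff₀ (by positivity)] at h
    have e : Real.exp ((1 + 3 * K) / 12) = Real.exp (1 / 12) * Real.exp (K / 4) := by
      rw [← Real.exp_add]; congr 1; ring
    rw [e] at h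
    calc (1 + 3 * K) ^ D ≤ _ := h
      _ = _ := by ring

/-- lower bound for the main value -/
lemma cmain_ge : ∃ c₁ : ℝ, 0 < c₁ ∧ ∀ (Y : ℕ) (K : ℝ), 3 ≤ Y → 0 ≤ K → K ≤ Real.log Y →
    c₁ * Real.exp K ≤ cmain Y K := by
  have hcont : ContinuousOn (fun z : ℝ => Real.Gamma (1 + z)) (Icc 0 1) := by
    intro z hz
    have h1 : DifferentiableAt ℝ Real.Gamma (1 + z) := by
      apply Real.differentiableAt_Gamma
      intro m h
      have := hz.1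
      have h2 : (0 : ℝ) ≤ m := by positivity
      linarith
    exact (h1.continuousAt.comp (by fun_prop : ContinuousAt (fun z : ℝ => 1 + z) z)).continuousWithinAt
  obtain ⟨z₀, hz₀, hmin⟩ := isCompact_Icc.exists_isMinOn (nonempty_Icc.2 zero_le_one) hcont
  have hpos : 0 < Real.Gamma (1 + z₀) := Real.Gamma_pos_of_pos (by linarith [hz₀.1])
  refine ⟨4 * Real.Gamma (1 + z₀) * π ^ (-2 : ℝ), by positivity, fun Y K hY hK hKL => ?_⟩
  have h0 : (1 : ℝ) < Y := by exact_mod_cast (by omega : 1 < Y)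
  have hL := Real.log_pos h0
  have hz : K / Real.log Y ∈ Icc (0 : ℝ) 1 := ⟨by positivity, by rw [div_le_one hL]; exact hKL⟩
  have h1 : Real.Gamma (1 + z₀) ≤ Real.Gamma (1 + K / Real.log Y) := hmin hz
  have h2 : π ^ (-2 : ℝ) ≤ π ^ (-1 - K / Real.log Y) := by
    apply Real.rpow_le_rpow_of_exponent_le (by linarith [Real.pi_gt_three])
    linarith [hz.2]
  unfold cmain
  gcongr

/-- `log` against `exp √Y` -/
lemma exp_sqrt_le (D : ℕ) {Y : ℕ} (hY : 3 ≤ Y) :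
    (Y : ℝ) * Real.exp (-√(Y : ℝ)) * Real.log Y ^ D ≤ ((2 + 2 * D).factorial : ℝ) := by
  have h0 : (1 : ℝ) < Y := by exact_mod_cast (by omega : 1 < Y)
  have hL := Real.log_pos h0
  have h1 := Real.pow_div_factorial_le_exp (√(Y : ℝ)) (Real.sqrt_nonneg _) (2 + 2 * D)
  rw [div_le_iff₀ (by positivity), pow_add, pow_mul, Real.sq_sqrt (by positivity)] at h1
  have h2 : Real.log Y ≤ Y := (Real.log_le_sub_one_of_pos (by positivity)).trans (by linarith)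
  have h3 : Real.log Y ^ D ≤ (Y : ℝ) ^ D := pow_le_pow_left₀ hL.le h2 D
  rw [Real.exp_neg]
  have hE := Real.exp_pos (√(Y : ℝ))
  rw [mul_assoc, mul_comm (Real.exp (√(Y : ℝ)))⁻¹, ← mul_assoc, ← div_eq_mul_inv,
    div_le_iff₀ hE]
  calc (Y : ℝ) * Real.log Y ^ D ≤ (Y : ℝ) * (Y : ℝ) ^ D := by gcongr
    _ ≤ _ := by linarith

/-- the quadratic inequality -/
lemma quad {ρ α β c₁ : ℝ} (hρ : 0 ≤ ρ) (hc : 0 < c₁) (h : ρ * c₁ ≤ √ρ * α + β) :
    ρ ≤ α ^ 2 / c₁ ^ 2 + 2 * β / c₁ := by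
  have h1 : √ρ ^ 2 = ρ := Real.sq_sqrt hρ
  have h2 : √ρ * α ≤ c₁ * ρ / 2 + α ^ 2 / (2 * c₁) := by
    have h3 : 0 ≤ (c₁ * √ρ - α) ^ 2 / (2 * c₁) := by positivity
    have e : (c₁ * √ρ - α) ^ 2 / (2 * c₁) = c₁ * √ρ ^ 2 / 2 + α ^ 2 / (2 * c₁) - √ρ * α := by
      field_simp
      ring
    rw [e, h1] at h3
    linarith
  have h4 : ρ * c₁ / 2 ≤ α ^ 2 / (2 * c₁) + β := by linarith
  have h5 : ρ = (ρ * c₁ / 2) * (2 / c₁) := by field_simp
  rw [h5]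
  calc (ρ * c₁ / 2) * (2 / c₁) ≤ (α ^ 2 / (2 * c₁) + β) * (2 / c₁) := by gcongr
    _ = _ := by field_simp

lemma sqrt_bound {C Y Z b : ℝ} (A : ℕ) (hC : 0 ≤ C) (hY : 0 ≤ Y) (hZ : 1 ≤ Z) (hb : 0 ≤ b) :
    √(C * Y * Z ^ A * b ^ 2) ≤ √(C * Y) * Z ^ A * b := by
  have h1 : 1 ≤ Z ^ A := one_le_pow₀ hZ
  apply Real.sqrt_le_iff.2
  refine ⟨by positivity, ?_⟩
  rw [mul_pow, mul_pow, Real.sq_sqrt (by positivity)]
  have : Z ^ A ≤ (Z ^ A) ^ 2 := by nlinarith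
  gcongr

lemma sqrt_bound' {C Y Z : ℝ} (A : ℕ) (hC : 0 ≤ C) (hY : 0 ≤ Y) (hZ : 1 ≤ Z) :
    √(C * Y * Z ^ A) ≤ √(C * Y) * Z ^ A := by
  have := sqrt_bound A hC hY hZ zero_le_one
  simpa using this

/-- the sum of the weights -/
lemma sum_inv_fact (x : ℝ) (hx : 0 ≤ x) (b : ℕ) :
    ∑ l ∈ Finset.range b, x ^ l / (l.factorial : ℝ) ≤ Real.exp x :=
  Real.sum_le_exp_of_nonneg hx b

/-- weights against the outer bounds -/
lemma wl_outer {z K Co : ℝ} {a b n l : ℕ} (hz : 0 ≤ z) (hz6 : z ≤ 1 / 6) (hK : 1 ≤ K)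
    (hCo : 1 ≤ Co) (hb : (b : ℝ) = 20 * K) (hl : l < b) (β : ℝ)
    (h1 : 10 * K ≤ ((b - l : ℕ) : ℝ) → β ≤ Co * (1 + 3 * K) ^ (a - l + n))
    (h2 : ¬ 10 * K ≤ ((b - l : ℕ) : ℝ) → β ≤ Co * (1 + 3 * K) ^ n * Real.exp (3 * K)) :
    wl z l * β ≤ Co * (1 + 3 * K) ^ (a + n) * (1 ^ l / (l.factorial : ℝ)) := by
  have hw := wl_nonneg hz l
  have hK3 : 1 ≤ 1 + 3 * K := by linarith
  by_cases h : 10 * K ≤ ((b - l : ℕ) : ℝ)
  · have h3 : wl z l ≤ 1 ^ l / (l.factorial : ℝ) := by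
      unfold wl
      gcongr
      linarith
    have h4 : β ≤ Co * (1 + 3 * K) ^ (a + n) := by
      refine (h1 h).trans ?_
      gcongr
      · omega
    calc wl z l * β ≤ wl z l * (Co * (1 + 3 * K) ^ (a + n)) := by gcongr
      _ ≤ (1 ^ l / (l.factorial : ℝ)) * (Co * (1 + 3 * K) ^ (a + n)) := by gcongr
      _ = _ := by ring
  · have h2 := h2 h
    push Not at h
    rw [Nat.cast_sub hl.le, hb] at h
    have hl2 : 10 * K < l := by linarith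
    have h3 : wl z l ≤ Real.exp (-(l : ℝ)) * (1 ^ l / (l.factorial : ℝ)) := by
      unfold wl
      have e1 : Real.exp (-(l : ℝ)) = Real.exp (-1) ^ l := by
        rw [← Real.exp_nat_mul]; congr 1; ring
      rw [e1, one_pow, mul_one_div]
      gcongr
      have h5 : (2.2 : ℝ) * z ≤ 0.367 := by linarith
      have h6 : (0.367 : ℝ) ≤ Real.exp (-1) := by
        have := Real.exp_one_lt_d9
        rw [Real.exp_neg, ← one_div, le_div_iff₀ (Real.exp_pos _)]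
        linarith
      linarith
    have h4 : Real.exp (-(l : ℝ)) * Real.exp (3 * K) ≤ 1 := by
      rw [← Real.exp_add, Real.exp_le_one_iff]
      linarith
    have h5 : (1 + 3 * K) ^ n ≤ (1 + 3 * K) ^ (a + n) := pow_le_pow_right₀ hK3 (by omega)
    calc wl z l * β ≤ wl z l * (Co * (1 + 3 * K) ^ n * Real.exp (3 * K)) := by gcongr
      _ ≤ (Real.exp (-(l : ℝ)) * (1 ^ l / (l.factorial : ℝ))) *
          (Co * (1 + 3 * K) ^ n * Real.exp (3 * K)) := by gcongr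
      _ = (Real.exp (-(l : ℝ)) * Real.exp (3 * K)) * (Co * (1 + 3 * K) ^ n *
          (1 ^ l / (l.factorial : ℝ))) := by ring
      _ ≤ 1 * (Co * (1 + 3 * K) ^ (a + n) * (1 ^ l / (l.factorial : ℝ))) := by gcongr
      _ = _ := one_mul _

/-- weights against the near bounds -/
lemma wl_near {z q : ℝ} (a l : ℕ) (hz : 0 ≤ z) (hz1 : z ≤ 1) (hzq : z ≤ q) :
    wl z l * q ^ (a - l) ≤ q ^ a * (2.2 ^ l / (l.factorial : ℝ)) := by
  have hq : 0 ≤ q := hz.trans hzq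
  have h1 : z ^ l * q ^ (a - l) ≤ q ^ a := by
    by_cases h : l ≤ a
    · calc z ^ l * q ^ (a - l) ≤ q ^ l * q ^ (a - l) := by gcongr
        _ = q ^ a := by rw [← pow_add]; congr 1; omega
    · have e : a - l = 0 := by omega
      rw [e, pow_zero, mul_one]
      calc z ^ l ≤ z ^ a := pow_le_pow_of_le_one hz hz1 (by omega)
        _ ≤ q ^ a := by gcongr
  unfold wl
  rw [mul_pow]
  calc 2.2 ^ l * z ^ l / (l.factorial : ℝ) * q ^ (a - l) =
        (2.2 ^ l / (l.factorial : ℝ)) * (z ^ l * q ^ (a - l)) := by ring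
    _ ≤ (2.2 ^ l / (l.factorial : ℝ)) * q ^ a := by gcongr
    _ = _ := by ring

/-- the sum over the windows -/
lemma sum_windows (A a J : ℕ) (ha : 2 * A + 1 ≤ a) {K : ℝ} (hK : 0 ≤ K) :
    ∑ j ∈ Finset.range J, ((2 : ℝ) ^ (j + 1)) ^ A * ((2 : ℝ) ^ (j + 1)) ^ A * (K / 2 ^ j) ^ a ≤
      2 * 4 ^ A * K ^ a := by
  have h1 : ∀ j ∈ Finset.range J,
      ((2 : ℝ) ^ (j + 1)) ^ A * ((2 : ℝ) ^ (j + 1)) ^ A * (K / 2 ^ j) ^ a ≤
        4 ^ A * K ^ a * (1 / 2) ^ j := by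
    intro j _
    obtain ⟨d, rfl⟩ := Nat.exists_eq_add_of_le ha
    have e : ((2 : ℝ) ^ (j + 1)) ^ A * ((2 : ℝ) ^ (j + 1)) ^ A * (K / 2 ^ j) ^ (2 * A + 1 + d) =
        4 ^ A * K ^ (2 * A + 1 + d) * (1 / 2) ^ j * (1 / 2 ^ j) ^ d := by
      have e4 : (4 : ℝ) = 2 ^ 2 := by norm_num
      rw [e4, div_pow, div_pow, div_pow, one_pow, one_pow, pow_succ (2 : ℝ) j]
      have h2 : (2 : ℝ) ^ j ≠ 0 := by positivity
      rw [mul_pow, pow_add ((2 : ℝ) ^ j) (2 * A + 1) d, pow_succ ((2 : ℝ) ^ j) (2 * A),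
        pow_mul ((2 : ℝ) ^ j) 2 A, ← pow_mul (2 : ℝ) 2 A]
      field_simp
      ring
    rw [e]
    refine mul_le_of_le_one_right (by positivity) ?_
    apply pow_le_one₀ (by positivity)
    rw [div_le_one (by positivity)]
    exact one_le_pow₀ (by norm_num)
  refine (Finset.sum_le_sum h1).trans ?_
  rw [← Finset.mul_sum]
  have h2 : ∑ j ∈ Finset.range J, ((1 : ℝ) / 2) ^ j ≤ 2 := by
    have := sum_geometric_two_le J
    exact this
  calc 4 ^ A * K ^ a * ∑ j ∈ Finset.range J, ((1 : ℝ) / 2) ^ j ≤ 4 ^ A * K ^ a * 2 := by gcongr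
    _ = _ := by ring

end Asm
end P004
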