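import Vale.Agent.P004.H503.AsmE

/-!
# P004, assembly, part F: the norms of the windows
-/

open Real MeasureTheory Set
open scoped ENNReal

namespace P004
namespace Asm

/-- choice of the last window -/
lemma exists_J {L : ℝ} (hL : 1 ≤ L) : ∃ J : ℕ, (2 : ℝ) ^ J ≤ L ^ (1 / 4 : ℝ) ∧
    L ^ (1 / 4 : ℝ) < 2 ^ (J + 1) := by
  have h1 : (1 : ℝ) ≤ L ^ (1 / 4 : ℝ) := Real.one_le_rpow hL (by norm_num)
  exact exists_nat_pow_near h1 (by norm_num)

/-- the inner scale -/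
lemma inner_scale {L K : ℝ} {J : ℕ} (hL : 100 ≤ L) (hK : 0 ≤ K) (hK8 : K ≤ L ^ (1 / 8 : ℝ))
    (hJ : L ^ (1 / 4 : ℝ) < 2 ^ (J + 1)) :
    K / L * (2 * (L / (20 * 2 ^ J)) + 3) ≤ L ^ (-(1 / 8) : ℝ) ∧
      2 * (L / (20 * 2 ^ J)) + 3 ≤ L := by
  have hL0 : 0 < L := by linarith
  have h4 : 0 < L ^ (1 / 4 : ℝ) := by positivity
  have h2J : L ^ (1 / 4 : ℝ) / 2 ≤ 2 ^ J := by
    rw [pow_succ] at hJ; linarith
  have h1 : 2 * (L / (20 * 2 ^ J)) ≤ L / L ^ (1 / 4 : ℝ) * (1 / 5) := by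
    have : 2 * (L / (20 * 2 ^ J)) = L / 2 ^ J * (1 / 10) := by field_simp; ring
    rw [this]
    calc L / 2 ^ J * (1 / 10) ≤ L / (L ^ (1 / 4 : ℝ) / 2) * (1 / 10) := by gcongr
      _ = _ := by field_simp; ring
  have h3 : (3 : ℝ) ≤ L / L ^ (1 / 4 : ℝ) * (4 / 5) := by
    have e : L / L ^ (1 / 4 : ℝ) = L ^ (3 / 4 : ℝ) := by
      rw [div_eq_iff h4.ne', ← Real.rpow_add hL0]; norm_num
    rw [e]
    have h5 : (10 : ℝ) ≤ L ^ (3 / 4 : ℝ) := by
      have h6 : (10 : ℝ) ≤ L ^ (1 / 2 : ℝ) := by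
        rw [← Real.sqrt_eq_rpow]
        apply Real.le_sqrt_of_sq_le
        linarith
      exact h6.trans (Real.rpow_le_rpow_of_exponent_le (by linarith) (by norm_num))
    linarith
  have h7 : 2 * (L / (20 * 2 ^ J)) + 3 ≤ L / L ^ (1 / 4 : ℝ) := by linarith
  constructor
  · calc K / L * (2 * (L / (20 * 2 ^ J)) + 3) ≤ K / L * (L / L ^ (1 / 4 : ℝ)) := by gcongr
      _ = K / L ^ (1 / 4 : ℝ) := by field_simp
      _ ≤ L ^ (1 / 8 : ℝ) / L ^ (1 / 4 : ℝ) := by gcongr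
      _ = L ^ (-(1 / 8) : ℝ) := by
        rw [← Real.rpow_sub hL0]; norm_num
  · refine h7.trans ?_
    apply div_le_self hL0.le
    exact Real.one_le_rpow (by linarith) (by norm_num)

/-- the window bound in terms of norms -/
def WinHyp (Y n A J : ℕ) (K s : ℝ) (M : ℕ → ℕ → ℝ) : Prop :=
  ∀ (j : ℕ) (h : ℝ → ℝ) (β : ℝ), j ≤ J → ContDiff ℝ n h →
    (∀ x, h x ≠ 0 → wj Y j ≤ x ∧ x ≤ 3 * Real.log Y) → 0 ≤ β →
    (∀ i ≤ n, ∀ x, |iteratedDeriv i h x| ≤ β * (wj Y j)⁻¹ ^ i) →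
    nY Y (fun m => M j m * Fw Y h m) ≤ s * (K * 2 ^ j) ^ A * β

lemma Gp_contDiff (n : ℕ) (z : ℝ) (a b : ℕ) : ContDiff ℝ n (Gp z a b) := by
  unfold Gp
  fun_prop

lemma norm2 (hWf : StWf) {Y n A J : ℕ} {K s Co : ℝ} {M : ℕ → ℕ → ℝ} (hY : 3 ≤ Y) (hK1 : 1 ≤ K)
    (hCo : 1 ≤ Co) (hwin : WinHyp Y n A J K s M)
    (houter : ∀ (Y a b : ℕ) (K : ℝ), 3 ≤ Y → 1 ≤ K → ∀ i ≤ n, ∀ x : ℝ,
    (20 * K ≤ b → |iteratedDeriv i (fun x => psi Y x * (Gp (K / Real.log Y) a b x -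
      Real.exp (K / Real.log Y * x))) x| ≤ Co * (1 + 3 * K) ^ (a + n) * (wj Y 0)⁻¹ ^ i) ∧
    (10 * K ≤ b → |iteratedDeriv i (fun x => psi Y x * Gp (K / Real.log Y) a b (-x)) x| ≤
      Co * (1 + 3 * K) ^ (a + n) * (wj Y 0)⁻¹ ^ i) ∧
    |iteratedDeriv i (fun x => psi Y x * Gp (K / Real.log Y) a b (-x)) x| ≤
      Co * (1 + 3 * K) ^ n * Real.exp (3 * K) * (wj Y 0)⁻¹ ^ i)
    (a b : ℕ) (hbK : (b : ℝ) = 20 * K) :
    nY Y (fun m => M 0 m * Fw Y (fun x => psi Y x * (Gp (K / Real.log Y) a b x -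
      Real.exp (K / Real.log Y * x))) m) ≤ s * K ^ A * (Co * (1 + 3 * K) ^ (a + n)) := by
  have hpsic : ContDiff ℝ n (psi Y) := (hWf.smooth Y 0 n hY).2
  have hK0 : 0 ≤ K := by linarith
  have := hwin 0 (fun x => psi Y x * (Gp (K / Real.log Y) a b x -
    Real.exp (K / Real.log Y * x))) (Co * (1 + 3 * K) ^ (a + n)) (by omega)
    ?_ ?_ (by positivity) ?_
  · simpa using this
  · exact hpsic.mul ((Gp_contDiff n _ a b).sub (by fun_prop))
  · intro x hx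
    exact psi_supp hY (left_ne_zero_of_mul hx)
  · intro i hi x
    exact (houter Y a b K hY hK1 i hi x).1 hbK.ge

lemma norm3 (hWf : StWf) {Y n A J : ℕ} {K s Co : ℝ} {M : ℕ → ℕ → ℝ} (hY : 3 ≤ Y) (hK1 : 1 ≤ K)
    (hCo : 1 ≤ Co) (hs0 : 0 ≤ s) (hwin : WinHyp Y n A J K s M)
    (houter : ∀ (Y a b : ℕ) (K : ℝ), 3 ≤ Y → 1 ≤ K → ∀ i ≤ n, ∀ x : ℝ,
    (20 * K ≤ b → |iteratedDeriv i (fun x => psi Y x * (Gp (K / Real.log Y) a b x -
      Real.exp (K / Real.log Y * x))) x| ≤ Co * (1 + 3 * K) ^ (a + n) * (wj Y 0)⁻¹ ^ i) ∧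
    (10 * K ≤ b → |iteratedDeriv i (fun x => psi Y x * Gp (K / Real.log Y) a b (-x)) x| ≤
      Co * (1 + 3 * K) ^ (a + n) * (wj Y 0)⁻¹ ^ i) ∧
    |iteratedDeriv i (fun x => psi Y x * Gp (K / Real.log Y) a b (-x)) x| ≤
      Co * (1 + 3 * K) ^ n * Real.exp (3 * K) * (wj Y 0)⁻¹ ^ i)
    (a b : ℕ) (hbK : (b : ℝ) = 20 * K) (hz0 : 0 ≤ K / Real.log Y)
    (hz6 : K / Real.log Y ≤ 1 / 6) :
    ∑ l ∈ Finset.range b, wl (K / Real.log Y) l *
        nY Y (fun m => M 0 m * Fw Y (fun x => psi Y x *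
          Gp (K / Real.log Y) (a - l) (b - l) (-x)) m) ≤
      s * K ^ A * (Co * (1 + 3 * K) ^ (a + n)) * Real.exp 1 := by
  have hpsic : ContDiff ℝ n (psi Y) := (hWf.smooth Y 0 n hY).2
  have hK0 : 0 ≤ K := by linarith
  have hterm : ∀ l ∈ Finset.range b, wl (K / Real.log Y) l *
        nY Y (fun m => M 0 m * Fw Y (fun x => psi Y x *
          Gp (K / Real.log Y) (a - l) (b - l) (-x)) m) ≤
        s * K ^ A * (Co * (1 + 3 * K) ^ (a + n)) * (1 ^ l / (l.factorial : ℝ)) := by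
    intro l hl
    have hl' := Finset.mem_range.1 hl
    have hw := wl_nonneg hz0 l
    have hsupp : ∀ x, psi Y x * Gp (K / Real.log Y) (a - l) (b - l) (-x) ≠ 0 →
        wj Y 0 ≤ x ∧ x ≤ 3 * Real.log Y := fun x hx => psi_supp hY (left_ne_zero_of_mul hx)
    have hcd : ContDiff ℝ n (fun x => psi Y x * Gp (K / Real.log Y) (a - l) (b - l) (-x)) :=
      hpsic.mul ((Gp_contDiff n _ _ _).comp contDiff_neg)
    obtain ⟨β, hβ0, hβ1, hβ2, hβ3⟩ : ∃ β : ℝ, 0 ≤ β ∧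
        (10 * K ≤ ((b - l : ℕ) : ℝ) → β ≤ Co * (1 + 3 * K) ^ (a - l + n)) ∧
        (¬ 10 * K ≤ ((b - l : ℕ) : ℝ) → β ≤ Co * (1 + 3 * K) ^ n * Real.exp (3 * K)) ∧
        ∀ i ≤ n, ∀ x, |iteratedDeriv i (fun x => psi Y x *
          Gp (K / Real.log Y) (a - l) (b - l) (-x)) x| ≤ β * (wj Y 0)⁻¹ ^ i := by
      by_cases h : 10 * K ≤ ((b - l : ℕ) : ℝ)
      · refine ⟨Co * (1 + 3 * K) ^ (a - l + n), by positivity, fun _ => le_rfl,
          fun h' => absurd h h', fun i hi x => ?_⟩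
        exact (houter Y (a - l) (b - l) K hY hK1 i hi x).2.1 h
      · refine ⟨Co * (1 + 3 * K) ^ n * Real.exp (3 * K), by positivity,
          fun h' => absurd h' h, fun _ => le_rfl, fun i hi x => ?_⟩
        exact (houter Y (a - l) (b - l) K hY hK1 i hi x).2.2
    have h1 := hwin 0 (fun x => psi Y x * Gp (K / Real.log Y) (a - l) (b - l) (-x)) β (by omega)
      hcd hsupp hβ0 hβ3
    rw [pow_zero, mul_one] at h1
    have h2 := wl_outer (b := b) (a := a) (n := n) hz0 hz6 hK1 hCo hbK hl' β hβ1 hβ2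
    calc wl (K / Real.log Y) l * nY Y (fun m => M 0 m *
          Fw Y (fun x => psi Y x * Gp (K / Real.log Y) (a - l) (b - l) (-x)) m) ≤
          wl (K / Real.log Y) l * (s * K ^ A * β) := mul_le_mul_of_nonneg_left h1 hw
      _ = s * K ^ A * (wl (K / Real.log Y) l * β) := by ring
      _ ≤ s * K ^ A * (Co * (1 + 3 * K) ^ (a + n) * (1 ^ l / (l.factorial : ℝ))) :=
          mul_le_mul_of_nonneg_left h2 (by positivity)
      _ = _ := by ring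
  refine (Finset.sum_le_sum hterm).trans ?_
  rw [← Finset.mul_sum]
  exact mul_le_mul_of_nonneg_left (sum_inv_fact 1 zero_le_one b) (by positivity)

lemma norm4 (hWf : StWf) {Y n A J : ℕ} {K s Cn : ℝ} {M Mr : ℕ → ℕ → ℝ} (hY : 3 ≤ Y)
    (hK1 : 1 ≤ K) (hCn : 1 ≤ Cn) (hs0 : 0 ≤ s) (hwin : WinHyp Y n A J K s M)
    (hMr : ∀ j ≤ J, nY Y (Mr j) ≤ s * (2 ^ j) ^ A)
    (hnear : ∀ (Y j a b : ℕ) (K : ℝ), 3 ≤ Y → 1 ≤ K → ∀ i ≤ n, ∀ x : ℝ,
    |iteratedDeriv i (fun x => Wn Y j x * Gp (K / Real.log Y) a b x) x| ≤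
      Cn * K ^ n * (K / 2 ^ j) ^ a * Real.exp (K / 10) * (wj Y (j + 1))⁻¹ ^ i ∧
    |iteratedDeriv i (fun x => Wn Y j x * Gp (K / Real.log Y) a b (-x)) x| ≤
      Cn * K ^ n * (K / 2 ^ j) ^ a * Real.exp (K / 10) * (wj Y (j + 1))⁻¹ ^ i)
    (a b : ℕ) (ha : 2 * A + 1 ≤ a) (hz0 : 0 ≤ K / Real.log Y) (hz1 : K / Real.log Y ≤ 1)
    (hzq : ∀ j < J, K / Real.log Y ≤ K / 2 ^ j) :
    ∑ j ∈ Finset.range J,
        (nY Y (fun m => M (j + 1) m * Fw Y (fun x => Wn Y j x * Gp (K / Real.log Y) a b x) m) *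
          nY Y (Mr (j + 1)) +
        ∑ l ∈ Finset.range b, wl (K / Real.log Y) l *
          (nY Y (fun m => M (j + 1) m *
            Fw Y (fun x => Wn Y j x * Gp (K / Real.log Y) (a - l) (b - l) (-x)) m) *
              nY Y (Mr (j + 1)))) ≤
      s * s * Cn * (2 * 4 ^ A) * (1 + Real.exp 2.2) * (K ^ (A + n + a) * Real.exp (K / 10)) := by
  have hK0 : 0 ≤ K := by linarith
  have hWnc : ∀ j, ContDiff ℝ n (Wn Y j) := fun j => (hWf.smooth Y j n hY).1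
  have hsupp : ∀ j, ∀ g : ℝ → ℝ, ∀ x, Wn Y j x * g x ≠ 0 →
      wj Y (j + 1) ≤ x ∧ x ≤ 3 * Real.log Y := by
    intro j g x hx
    obtain ⟨h1, h2⟩ := Wn_supp hY j (left_ne_zero_of_mul hx)
    refine ⟨h1, h2.trans ?_⟩
    have h0 : (1 : ℝ) < Y := by exact_mod_cast (by omega : 1 < Y)
    have hL := Real.log_pos h0
    unfold wj
    have h3 : (1 : ℝ) ≤ 2 ^ j := one_le_pow₀ (by norm_num)
    have h4 : Real.log Y / (20 * 2 ^ j) ≤ Real.log Y := by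
      apply div_le_self hL.le
      linarith
    linarith
  set E := Real.exp (K / 10) with hE
  have hE0 : 0 < E := Real.exp_pos _
  have key : ∀ j ∈ Finset.range J,
      (nY Y (fun m => M (j + 1) m * Fw Y (fun x => Wn Y j x * Gp (K / Real.log Y) a b x) m) *
          nY Y (Mr (j + 1)) +
        ∑ l ∈ Finset.range b, wl (K / Real.log Y) l *
          (nY Y (fun m => M (j + 1) m *
            Fw Y (fun x => Wn Y j x * Gp (K / Real.log Y) (a - l) (b - l) (-x)) m) *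
              nY Y (Mr (j + 1)))) ≤
      s * s * Cn * (1 + Real.exp 2.2) * (K ^ (A + n) * E) *
        (((2 : ℝ) ^ (j + 1)) ^ A * ((2 : ℝ) ^ (j + 1)) ^ A * (K / 2 ^ j) ^ a) := by
    intro j hj
    have hj' := Finset.mem_range.1 hj
    have hr := hMr (j + 1) (by omega)
    have hr0 := nY_nonneg Y (Mr (j + 1))
    have hq0 : 0 ≤ K / 2 ^ j := by positivity
    have g1 := hwin (j + 1) (fun x => Wn Y j x * Gp (K / Real.log Y) a b x)
      (Cn * K ^ n * (K / 2 ^ j) ^ a * E) (by omega) ((hWnc j).mul (Gp_contDiff n _ a b))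
      (hsupp j _) (by positivity) (fun i hi x => (hnear Y j a b K hY hK1 i hi x).1)
    have g2 : ∀ l, nY Y (fun m => M (j + 1) m *
        Fw Y (fun x => Wn Y j x * Gp (K / Real.log Y) (a - l) (b - l) (-x)) m) ≤
        s * (K * 2 ^ (j + 1)) ^ A * (Cn * K ^ n * (K / 2 ^ j) ^ (a - l) * E) := fun l =>
      hwin (j + 1) (fun x => Wn Y j x * Gp (K / Real.log Y) (a - l) (b - l) (-x))
      (Cn * K ^ n * (K / 2 ^ j) ^ (a - l) * E) (by omega)
      ((hWnc j).mul ((Gp_contDiff n _ _ _).comp contDiff_neg))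
      (hsupp j _) (by positivity) (fun i hi x => (hnear Y j (a - l) (b - l) K hY hK1 i hi x).2)
    have t1 : nY Y (fun m => M (j + 1) m *
        Fw Y (fun x => Wn Y j x * Gp (K / Real.log Y) a b x) m) * nY Y (Mr (j + 1)) ≤
        s * s * Cn * (K ^ (A + n) * E) *
        (((2 : ℝ) ^ (j + 1)) ^ A * ((2 : ℝ) ^ (j + 1)) ^ A * (K / 2 ^ j) ^ a) * 1 := by
      calc _ ≤ (s * (K * 2 ^ (j + 1)) ^ A * (Cn * K ^ n * (K / 2 ^ j) ^ a * E)) *
            (s * (2 ^ (j + 1)) ^ A) := mul_le_mul g1 hr hr0 (by positivity)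
        _ = _ := by rw [mul_pow, pow_add K A n]; ring
    have t2 : ∑ l ∈ Finset.range b, wl (K / Real.log Y) l *
          (nY Y (fun m => M (j + 1) m *
            Fw Y (fun x => Wn Y j x * Gp (K / Real.log Y) (a - l) (b - l) (-x)) m) *
              nY Y (Mr (j + 1))) ≤ s * s * Cn * (K ^ (A + n) * E) *
        (((2 : ℝ) ^ (j + 1)) ^ A * ((2 : ℝ) ^ (j + 1)) ^ A * (K / 2 ^ j) ^ a) *
          Real.exp 2.2 := by
      have t3 : ∀ l ∈ Finset.range b, wl (K / Real.log Y) l *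
          (nY Y (fun m => M (j + 1) m *
            Fw Y (fun x => Wn Y j x * Gp (K / Real.log Y) (a - l) (b - l) (-x)) m) *
              nY Y (Mr (j + 1))) ≤ s * s * Cn * (K ^ (A + n) * E) *
        (((2 : ℝ) ^ (j + 1)) ^ A * ((2 : ℝ) ^ (j + 1)) ^ A * (K / 2 ^ j) ^ a) *
          (2.2 ^ l / (l.factorial : ℝ)) := by
        intro l _
        have hw := wl_nonneg hz0 l
        have h3 := wl_near (q := K / 2 ^ j) a l hz0 hz1 (hzq j hj')
        calc _ ≤ wl (K / Real.log Y) l * ((s * (K * 2 ^ (j + 1)) ^ A *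
              (Cn * K ^ n * (K / 2 ^ j) ^ (a - l) * E)) * (s * (2 ^ (j + 1)) ^ A)) :=
              mul_le_mul_of_nonneg_left (mul_le_mul (g2 l) hr hr0 (by positivity)) hw
          _ = s * s * Cn * (K ^ (A + n) * E) * (((2 : ℝ) ^ (j + 1)) ^ A *
              ((2 : ℝ) ^ (j + 1)) ^ A) * (wl (K / Real.log Y) l * (K / 2 ^ j) ^ (a - l)) := by
              rw [mul_pow, pow_add K A n]; ring
          _ ≤ s * s * Cn * (K ^ (A + n) * E) * (((2 : ℝ) ^ (j + 1)) ^ A *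
              ((2 : ℝ) ^ (j + 1)) ^ A) * ((K / 2 ^ j) ^ a * (2.2 ^ l / (l.factorial : ℝ))) :=
              mul_le_mul_of_nonneg_left h3 (by positivity)
          _ = _ := by ring
      refine (Finset.sum_le_sum t3).trans ?_
      rw [← Finset.mul_sum]
      exact mul_le_mul_of_nonneg_left (sum_inv_fact 2.2 (by norm_num) b) (by positivity)
    calc _ ≤ _ := add_le_add t1 t2
      _ = _ := by ring
  refine (Finset.sum_le_sum key).trans ?_
  rw [← Finset.mul_sum]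
  have hw := sum_windows A a J ha hK0
  calc _ ≤ s * s * Cn * (1 + Real.exp 2.2) * (K ^ (A + n) * E) * (2 * 4 ^ A * K ^ a) :=
        mul_le_mul_of_nonneg_left hw (by positivity)
    _ = _ := by rw [pow_add K (A + n) a]; ring

end Asm
end P004
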