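import Vale.Agent.P004.H503.AsmF

/-!
# P004, assembly, part G: the numerical conclusion
-/

open Real MeasureTheory Set
open scoped ENNReal

namespace P004
namespace Asm

lemma norm5 {nM ζ SJ w Cm Cf Y L : ℝ} (A Af B a : ℕ) (ha : a = 2 * A + 1 + 8 * (A + Af + 1 + B))
    (hCm : 0 ≤ Cm) (hCf : 0 ≤ Cf) (hY : 0 ≤ Y) (hL : 1 ≤ L) (hM : nM ≤ √(Cm * Y) * L ^ A)
    (hζ0 : 0 ≤ ζ) (hζ : ζ ≤ L ^ (-(1 / 8) : ℝ)) (hSJ0 : 0 ≤ SJ) (hSJ : SJ ≤ Cf * Y * L ^ Af)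
    (hw0 : 0 ≤ w) (hw : w ≤ L) :
    nM * (2 * (ζ ^ a * Real.exp ζ) * √(SJ * w)) ≤
      √Cm * (2 * Real.exp 1) * √Cf * (Y * L ^ (-(B : ℝ))) := by
  have hL0 : 0 < L := by linarith
  have h1 : L ^ (-(1 / 8) : ℝ) ≤ 1 := Real.rpow_le_one_of_one_le_of_nonpos hL (by norm_num)
  have h2 : Real.exp ζ ≤ Real.exp 1 := Real.exp_le_exp.2 (hζ.trans h1)
  have h3 : ζ ^ a ≤ L ^ (-((A + Af + 1 + B : ℕ) : ℝ)) := by
    calc ζ ^ a ≤ (L ^ (-(1 / 8) : ℝ)) ^ a := pow_le_pow_left₀ hζ0 hζ a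
      _ ≤ (L ^ (-(1 / 8) : ℝ)) ^ (8 * (A + Af + 1 + B)) :=
        pow_le_pow_of_le_one (by positivity) h1 (by omega)
      _ = _ := by
        rw [← Real.rpow_natCast, ← Real.rpow_mul hL0.le]
        congr 1
        push_cast
        ring
  have h4 : √(SJ * w) ≤ √(Cf * Y) * L ^ (Af + 1) := by
    calc √(SJ * w) ≤ √(Cf * Y * L ^ (Af + 1)) := by
          apply Real.sqrt_le_sqrt
          calc SJ * w ≤ (Cf * Y * L ^ Af) * L := mul_le_mul hSJ hw hw0 (by positivity)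
            _ = _ := by rw [pow_succ]; ring
      _ ≤ _ := sqrt_bound' (Af + 1) hCf hY hL
  have h5 : 0 ≤ 2 * (ζ ^ a * Real.exp ζ) * √(SJ * w) := by positivity
  calc nM * (2 * (ζ ^ a * Real.exp ζ) * √(SJ * w)) ≤
        (√(Cm * Y) * L ^ A) * (2 * (L ^ (-((A + Af + 1 + B : ℕ) : ℝ)) * Real.exp 1) *
          (√(Cf * Y) * L ^ (Af + 1))) := by
        refine mul_le_mul hM ?_ h5 (by positivity)
        gcongr
    _ = √Cm * (2 * Real.exp 1) * √Cf * ((√Y * √Y) *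
        (L ^ (-((A + Af + 1 + B : ℕ) : ℝ)) * L ^ (A + (Af + 1)))) := by
        rw [Real.sqrt_mul hCm, Real.sqrt_mul hCf, pow_add]
        ring
    _ = _ := by
        rw [Real.mul_self_sqrt hY, ← Real.rpow_natCast L (A + (Af + 1)), ← Real.rpow_add hL0]
        congr 3
        push_cast
        ring

lemma norm6 {nM Cm c : ℝ} (A B : ℕ) {Y : ℕ} (hY : 3 ≤ Y) (hCm : 0 ≤ Cm) (hc : 0 ≤ c)
    (hM : nM ≤ √(Cm * Y) * Real.log Y ^ A) :
    nM * (c * (Y * Real.exp (-√(Y : ℝ))) * √(Y : ℝ)) ≤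
      √Cm * (c * ((2 + 2 * (A + B)).factorial : ℝ)) * (Y * Real.log Y ^ (-(B : ℝ))) := by
  have h0 : (1 : ℝ) < Y := by exact_mod_cast (by omega : 1 < Y)
  have hL := Real.log_pos h0
  have h1 := exp_sqrt_le (A + B) hY
  have h2 : (Y : ℝ) * Real.exp (-√(Y : ℝ)) * Real.log Y ^ A ≤
      ((2 + 2 * (A + B)).factorial : ℝ) * Real.log Y ^ (-(B : ℝ)) := by
    rw [Real.rpow_neg hL.le, Real.rpow_natCast, ← div_eq_mul_inv, le_div_iff₀ (by positivity)]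
    rw [pow_add] at h1
    linarith
  have h5 : 0 ≤ c * (Y * Real.exp (-√(Y : ℝ))) * √(Y : ℝ) := by positivity
  calc nM * (c * (Y * Real.exp (-√(Y : ℝ))) * √(Y : ℝ)) ≤
        (√(Cm * Y) * Real.log Y ^ A) * (c * (Y * Real.exp (-√(Y : ℝ))) * √(Y : ℝ)) :=
        mul_le_mul_of_nonneg_right hM h5
    _ = √Cm * c * (√(Y : ℝ) * √(Y : ℝ)) * ((Y : ℝ) * Real.exp (-√(Y : ℝ)) * Real.log Y ^ A) := by
        rw [Real.sqrt_mul hCm]
        ring
    _ ≤ √Cm * c * (√(Y : ℝ) * √(Y : ℝ)) * (((2 + 2 * (A + B)).factorial : ℝ) *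
        Real.log Y ^ (-(B : ℝ))) := by gcongr
    _ = _ := by
        rw [Real.mul_self_sqrt (by positivity)]
        ring

lemma gather {α β κ₃ LB X c₁ : ℝ} (_hα0 : 0 ≤ α) (hβ0 : 0 ≤ β) (hκ₃ : 0 ≤ κ₃) (hLB : 0 ≤ LB)
    (hX0 : 0 ≤ X) (hX1 : X ≤ 1) (hc₁ : 0 < c₁) :
    (α * X) ^ 2 / c₁ ^ 2 + 2 * (β * X + κ₃ * LB) / c₁ ≤
      (α ^ 2 / c₁ ^ 2 + 2 * (β + κ₃) / c₁) * (X + LB) := by
  have h6 : X ^ 2 ≤ X + LB := by nlinarith
  have t1 : (α * X) ^ 2 / c₁ ^ 2 ≤ α ^ 2 / c₁ ^ 2 * (X + LB) := by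
    have e : (α * X) ^ 2 / c₁ ^ 2 = α ^ 2 / c₁ ^ 2 * X ^ 2 := by ring
    rw [e]
    exact mul_le_mul_of_nonneg_left h6 (by positivity)
  have t2 : 2 * (β * X + κ₃ * LB) / c₁ ≤ 2 * (β + κ₃) / c₁ * (X + LB) := by
    have e : 2 * (β + κ₃) / c₁ * (X + LB) =
        2 * (β * X + κ₃ * LB) / c₁ + 2 * (β * LB + κ₃ * X) / c₁ := by ring
    rw [e]
    have h1 : 0 ≤ 2 * (β * LB + κ₃ * X) / c₁ := by positivity
    linarith
  calc _ ≤ _ := add_le_add t1 t2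
    _ = _ := by ring

/-- the conclusion, in terms of real numbers -/
lemma conclude {N Y K Cm cm c₁ c₃ Co Cn P κ₃ LB cM : ℝ} (A a n : ℕ) (hN : 0 ≤ N) (hY : 0 < Y)
    (hK : 1 ≤ K) (hCm : 0 ≤ Cm) (hc₁ : 0 < c₁) (hCo : 0 ≤ Co) (hCn : 0 ≤ Cn) (hP : 0 ≤ P)
    (hκ₃ : 0 ≤ κ₃) (hLB : 0 ≤ LB) (hcM : c₁ * Real.exp K ≤ cM)
    (hc₃0 : 0 ≤ c₃) (hc₃m : c₃ ≤ cm / 2) (hc₃ : c₃ ≤ 1 / 2)
    (hpoly : ∀ D ≤ A + n + a, (1 + 3 * K) ^ D ≤ P * Real.exp (K / 4))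
    (h : N * cM ≤ √N * (√(Cm * Y) * Real.exp (K - cm / 2 * √K) +
      √(Cm * Y) * K ^ A * (Co * (1 + 3 * K) ^ (a + n)) +
      √(Cm * Y) * K ^ A * (Co * (1 + 3 * K) ^ (a + n)) * Real.exp 1) +
      √(Cm * Y) * √(Cm * Y) * Cn * (2 * 4 ^ A) * (1 + Real.exp 2.2) *
        (K ^ (A + n + a) * Real.exp (K / 10)) + κ₃ * (Y * LB)) :
    N ≤ ((√Cm * (1 + Co * P * (1 + Real.exp 1))) ^ 2 / c₁ ^ 2 +
      2 * (Cm * Cn * (2 * 4 ^ A) * (1 + Real.exp 2.2) * P + κ₃) / c₁) * Y *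
        (Real.exp (-c₃ * √K) + LB) := by
  have hK0 : 0 ≤ K := by linarith
  have hsK : √K ≤ K := by
    rw [Real.sqrt_le_left hK0]; nlinarith
  have hsK0 := Real.sqrt_nonneg K
  set X := Real.exp (-c₃ * √K) with hX
  have hX0 : 0 < X := Real.exp_pos _
  have hX1 : X ≤ 1 := by
    rw [hX, Real.exp_le_one_iff]; nlinarith
  have hEK := Real.exp_pos K
  -- exponentials against `X e^K`
  have e1 : Real.exp (K - cm / 2 * √K) ≤ Real.exp K * X := by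
    rw [hX, ← Real.exp_add, Real.exp_le_exp]; nlinarith
  have e2 : Real.exp (K / 4) ≤ Real.exp K * X := by
    rw [hX, ← Real.exp_add, Real.exp_le_exp]; nlinarith
  have e3 : Real.exp (K / 4) * Real.exp (K / 10) ≤ Real.exp K * X := by
    rw [hX, ← Real.exp_add, ← Real.exp_add, Real.exp_le_exp]; nlinarith
  have hKD : ∀ D, K ^ D ≤ (1 + 3 * K) ^ D := fun D => pow_le_pow_left₀ hK0 (by linarith) D
  have p1 : K ^ A * (Co * (1 + 3 * K) ^ (a + n)) ≤ Co * P * (Real.exp K * X) := by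
    calc K ^ A * (Co * (1 + 3 * K) ^ (a + n)) ≤
          (1 + 3 * K) ^ A * (Co * (1 + 3 * K) ^ (a + n)) :=
          mul_le_mul_of_nonneg_right (hKD A) (by positivity)
      _ = Co * (1 + 3 * K) ^ (A + n + a) := by
          rw [show A + n + a = A + (a + n) by ring, pow_add (1 + 3 * K) A]; ring
      _ ≤ Co * (P * Real.exp (K / 4)) := by gcongr; exact hpoly _ le_rfl
      _ ≤ Co * (P * (Real.exp K * X)) := by gcongr
      _ = _ := by ring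
  have p2 : K ^ (A + n + a) * Real.exp (K / 10) ≤ P * (Real.exp K * X) := by
    calc K ^ (A + n + a) * Real.exp (K / 10) ≤ (P * Real.exp (K / 4)) * Real.exp (K / 10) := by
          gcongr
          exact (hKD _).trans (hpoly _ le_rfl)
      _ = P * (Real.exp (K / 4) * Real.exp (K / 10)) := by ring
      _ ≤ _ := by gcongr
  set s := √(Cm * Y) with hs
  have hs0 : 0 ≤ s := Real.sqrt_nonneg _
  have hss : s * s = Cm * Y := Real.mul_self_sqrt (by positivity)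
  have hs' : s = √Cm * √Y := by rw [hs, Real.sqrt_mul hCm]
  set α := √Cm * (1 + Co * P * (1 + Real.exp 1)) with hα
  have hα0 : 0 ≤ α := by positivity
  set β := Cm * Cn * (2 * 4 ^ A) * (1 + Real.exp 2.2) * P with hβ
  have hβ0 : 0 ≤ β := by positivity
  -- the simplified inequality
  have h1 : N * (c₁ * Real.exp K) ≤ √N * (√Y * (α * (Real.exp K * X))) +
      (Y * (β * (Real.exp K * X)) + κ₃ * (Y * LB)) := by
    have q1 : s * Real.exp (K - cm / 2 * √K) + s * K ^ A * (Co * (1 + 3 * K) ^ (a + n)) +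
        s * K ^ A * (Co * (1 + 3 * K) ^ (a + n)) * Real.exp 1 ≤
        √Y * (α * (Real.exp K * X)) := by
      calc _ = s * (Real.exp (K - cm / 2 * √K) + (K ^ A * (Co * (1 + 3 * K) ^ (a + n))) *
            (1 + Real.exp 1)) := by ring
        _ ≤ s * (Real.exp K * X + (Co * P * (Real.exp K * X)) * (1 + Real.exp 1)) := by
            gcongr
        _ = _ := by rw [hs', hα]; ring
    have q2 : s * s * Cn * (2 * 4 ^ A) * (1 + Real.exp 2.2) *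
        (K ^ (A + n + a) * Real.exp (K / 10)) ≤ Y * (β * (Real.exp K * X)) := by
      rw [hss]
      calc _ ≤ Cm * Y * Cn * (2 * 4 ^ A) * (1 + Real.exp 2.2) * (P * (Real.exp K * X)) := by
            gcongr
        _ = _ := by rw [hβ]; ring
    have q3 : N * (c₁ * Real.exp K) ≤ N * cM := mul_le_mul_of_nonneg_left hcM hN
    have q4 := mul_le_mul_of_nonneg_left q1 (Real.sqrt_nonneg N)
    linarith
  -- divide by `Y e^K`
  set ρ := N / Y with hρ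
  have hρ0 : 0 ≤ ρ := by positivity
  have hNρ : N = ρ * Y := by rw [hρ]; field_simp
  have h2 : ρ * c₁ ≤ √ρ * (α * X) + (β * X + κ₃ * LB) := by
    have e4 : √N = √ρ * √Y := by rw [hNρ, Real.sqrt_mul hρ0]
    rw [e4, hNρ] at h1
    have h3 : ρ * c₁ * (Y * Real.exp K) ≤ (√ρ * (α * X) + (β * X + κ₃ * LB)) *
        (Y * Real.exp K) := by
      have e5 : √ρ * √Y * (√Y * (α * (Real.exp K * X))) =
          √ρ * (α * X) * (Y * Real.exp K) := by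
        have : √Y * √Y = Y := Real.mul_self_sqrt hY.le
        calc _ = √ρ * (α * X) * ((√Y * √Y) * Real.exp K) := by ring
          _ = _ := by rw [this]
      have e6 : κ₃ * (Y * LB) ≤ κ₃ * LB * (Y * Real.exp K) := by
        have : 1 ≤ Real.exp K := Real.one_le_exp hK0
        have h7 : 0 ≤ κ₃ * (Y * LB) := by positivity
        calc κ₃ * (Y * LB) ≤ κ₃ * (Y * LB) * Real.exp K := le_mul_of_one_le_right h7 this
          _ = _ := by ring
      linarith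
    exact le_of_mul_le_mul_right h3 (by positivity)
  have h4 := quad hρ0 hc₁ h2
  have h5 := gather (κ₃ := κ₃) (LB := LB) hα0 hβ0 hκ₃ hLB hX0.le hX1 hc₁
  calc N = ρ * Y := hNρ
    _ ≤ ((α ^ 2 / c₁ ^ 2 + 2 * (β + κ₃) / c₁) * (X + LB)) * Y := by
        gcongr
        exact h4.trans h5
    _ = _ := by ring

end Asm
end P004
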